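import Vale.Agent.Lib.P154_cl98.BdB
import Vale.Agent.Lib.P154B.Final

/-!
The fourth-moment functional as a test function.
-/

noncomputable section

open Finset

namespace Vale.Agent.Lib.P154.Cl

open Vale.Agent.Lib.P154
open Vale.Agent.Lib.P154B

/-- The fourth-moment atom minus its value at the vertices. -/
def qTest (x : Vec) : ℝ := gQ (x 0) (x 1) (x 2) - 4 / 3 * Lin x

theorem fN_nonneg' {x : Vec} (hx : NN x) : 0 ≤ fN (x 0) (x 1) (x 2) := by
  rcases hx.lin.eq_or_lt with h | h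
  · have e0 : x 0 = 0 := by unfold Lin at h; linarith [hx 0, hx 1, hx 2]
    have e1 : x 1 = 0 := by unfold Lin at h; linarith [hx 0, hx 1, hx 2]
    have e2 : x 2 = 0 := by unfold Lin at h; linarith [hx 0, hx 1, hx 2]
    rw [e0, e1, e2]
    simp [fN, F3]
  · unfold fN
    have := F3_ge (x 0) (x 1) (x 2) h
    linarith

theorem fN_sub {x y : Vec} (hx : NN x) (hy : NN y) :
    fN ((x + y) 0) ((x + y) 1) ((x + y) 2) ≤ fN (x 0) (x 1) (x 2) + fN (y 0) (y 1) (y 2) := by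
  have h := F3_sub hx hy
  unfold fN
  simp only [Pi.add_apply] at h ⊢
  linarith

theorem gQ_sub {x y : Vec} (hx : NN x) (hy : NN y) :
    gQ ((x + y) 0) ((x + y) 1) ((x + y) 2) ≤ gQ (x 0) (x 1) (x 2) + gQ (y 0) (y 1) (y 2) := by
  have hs : 0 ≤ x 0 + x 1 + x 2 := hx.lin
  have ht : 0 ≤ y 0 + y 1 + y 2 := hy.lin
  rcases hs.eq_or_lt with hs0 | hs0
  · have e0 : x 0 = 0 := by linarith [hx 0, hx 1, hx 2]
    have e1 : x 1 = 0 := by linarith [hx 0, hx 1, hx 2]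
    have e2 : x 2 = 0 := by linarith [hx 0, hx 1, hx 2]
    simp [e0, e1, e2, gQ, fN, F3]
  rcases ht.eq_or_lt with ht0 | ht0
  · have e0 : y 0 = 0 := by linarith [hy 0, hy 1, hy 2]
    have e1 : y 1 = 0 := by linarith [hy 0, hy 1, hy 2]
    have e2 : y 2 = 0 := by linarith [hy 0, hy 1, hy 2]
    simp [e0, e1, e2, gQ, fN, F3]
  have h1 := fN_sub hx hy
  have h2 := fN_nonneg' (hx.add hy)
  have h3 := fN_nonneg' hx
  have h4 := fN_nonneg' hy
  have e : (x + y) 0 + (x + y) 1 + (x + y) 2 = (x 0 + x 1 + x 2) + (y 0 + y 1 + y 2) := by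
    simp only [Pi.add_apply]
    ring
  unfold gQ
  rw [e]
  set f := fN (x 0) (x 1) (x 2)
  set g := fN (y 0) (y 1) (y 2)
  set k := fN ((x + y) 0) ((x + y) 1) ((x + y) 2)
  have h5 : k ^ 2 ≤ (f + g) ^ 2 := pow_le_pow_left₀ h2 h1 2
  have h6 := titu (a := f) (b := g) hs0 ht0
  have hpos : 0 < (x 0 + x 1 + x 2) + (y 0 + y 1 + y 2) := by linarith
  have h7 : k ^ 2 / ((x 0 + x 1 + x 2) + (y 0 + y 1 + y 2)) ≤ (f + g) ^ 2 / ((x 0 + x 1 + x 2) + (y 0 + y 1 + y 2)) :=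
    div_le_div_of_nonneg_right h5 hpos.le
  have h8 : 3 * k ^ 2 / ((x 0 + x 1 + x 2) + (y 0 + y 1 + y 2)) = 3 * (k ^ 2 / ((x 0 + x 1 + x 2) + (y 0 + y 1 + y 2))) := by
    ring
  have h9 : 3 * f ^ 2 / (x 0 + x 1 + x 2) = 3 * (f ^ 2 / (x 0 + x 1 + x 2)) := by ring
  have h10 : 3 * g ^ 2 / (y 0 + y 1 + y 2) = 3 * (g ^ 2 / (y 0 + y 1 + y 2)) := by ring
  rw [h8, h9, h10]
  linarith

theorem qTest_isTest : IsTest qTest where
  sub := fun x y hx hy => by
    unfold qTest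
    have h1 := gQ_sub hx hy
    have h2 : Lin (x + y) = Lin x + Lin y := by
      unfold Lin
      simp only [Pi.add_apply]
      ring
    rw [h2]
    linarith
  hom := fun c x hc hx => by
    unfold qTest
    simp only [Pi.smul_apply, smul_eq_mul]
    have hL : Lin (c • x) = c * Lin x := by
      unfold Lin
      simp only [Pi.smul_apply, smul_eq_mul]
      ring
    rw [hL]
    rcases hc.eq_or_lt with rfl | hc0
    · simp [gQ, fN, F3]
    · rw [gQ_smul c _ _ _ hc0.ne']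
      ring
  perm := fun σ x hx => by
    unfold qTest
    rw [Lin_comp]
    congr 1
    unfold gQ fN F3
    have e1 := Equiv.sum_comp σ x
    have e2 := Equiv.sum_comp σ fun i => x i ^ 2
    simp only [Fin.sum_univ_three] at e1 e2
    simp only [Function.comp]
    rw [e1, e2]
  vert := by
    have h2 : (![1, 0, 0] : Vec) 2 = 0 := rfl
    unfold qTest gQ fN F3 Lin
    simp only [Matrix.cons_val_zero, Matrix.cons_val_one, h2]
    norm_num

theorem QQ_eq_test {ι : Type*} [Fintype ι] (l : ι → Fin 3 → ℝ) (h : SSig l) : sigFun l qTest = QQ l - 4 := by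
  unfold sigFun qTest QQ
  rw [Finset.sum_sub_distrib]
  congr 1
  rw [← Finset.mul_sum]
  have := sigFun_lin h
  unfold sigFun at this
  rw [this]
  norm_num

/-- The bound of the test on a rational vector, with `40` bits. -/
def qA' (X : Trip) (D : ℕ) : ℕ :=
  let n := sumT X
  let E := 3 * (X.1 ^ 2 + X.2.1 ^ 2 + X.2.2 ^ 2) - n ^ 2
  ((4 * n ^ 4 - E ^ 2) * 2 ^ 40) / (3 * n ^ 3 * D)

theorem qTest_bd : TestBd qTest 40 qA' := by
  intro X D hD
  have hDR : (0 : ℝ) < D := by exact_mod_cast hD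
  unfold qTest gQ fN F3 Lin vecOf qA' sumT
  simp only [Matrix.cons_val_zero, Matrix.cons_val_one, Matrix.cons_val]
  set a := X.1
  set b := X.2.1
  set c := X.2.2
  by_cases hs : a + b + c = 0
  · have ha : a = 0 := by omega
    have hb : b = 0 := by omega
    have hc : c = 0 := by omega
    rw [ha, hb, hc]
    simp
  have hsR : (0 : ℝ) < (a : ℝ) + b + c := by
    have : 0 < a + b + c := Nat.pos_of_ne_zero hs
    exact_mod_cast this
  have h3y : (a + b + c) ^ 2 ≤ 3 * (a ^ 2 + b ^ 2 + c ^ 2) := by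
    have h : ((a : ℤ) + b + c) ^ 2 ≤ 3 * ((a : ℤ) ^ 2 + (b : ℤ) ^ 2 + (c : ℤ) ^ 2) := by
      nlinarith [sq_nonneg ((a : ℤ) - b), sq_nonneg ((b : ℤ) - c), sq_nonneg ((a : ℤ) - c)]
    exact_mod_cast h
  have hy : a ^ 2 + b ^ 2 + c ^ 2 ≤ (a + b + c) ^ 2 := by
    nlinarith [Nat.zero_le (a * b), Nat.zero_le (b * c), Nat.zero_le (a * c)]
  set n := a + b + c with hn
  set y := a ^ 2 + b ^ 2 + c ^ 2 with hyy
  set E := 3 * y - n ^ 2 with hE
  have hE2 : E ≤ 2 * n ^ 2 := by omega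
  have hE3 : E ^ 2 ≤ 4 * n ^ 4 := by
    have := Nat.pow_le_pow_left hE2 2
    have e4 : (2 * n ^ 2) ^ 2 = 4 * n ^ 4 := by ring
    omega
  have hER : (E : ℝ) = 3 * (y : ℝ) - (n : ℝ) ^ 2 := by
    rw [hE, Nat.cast_sub h3y]
    push_cast
    ring
  set P := 4 * n ^ 4 - E ^ 2 with hP
  have hPR : (P : ℝ) = 4 * (n : ℝ) ^ 4 - (E : ℝ) ^ 2 := by
    rw [hP, Nat.cast_sub hE3]
    push_cast
    ring
  have hnR : (n : ℝ) = (a : ℝ) + b + c := by
    rw [hn]
    push_cast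
    ring
  have hyR : (y : ℝ) = (a : ℝ) ^ 2 + (b : ℝ) ^ 2 + (c : ℝ) ^ 2 := by
    rw [hyy]
    push_cast
    ring
  have hfl := Nat.div_mul_le_self (P * 2 ^ 40) (3 * n ^ 3 * D)
  set w := (P * 2 ^ 40) / (3 * n ^ 3 * D)
  have hfl' : (w : ℝ) * (3 * (n : ℝ) ^ 3 * D) ≤ (P : ℝ) * 2 ^ 40 := by
    exact_mod_cast hfl
  have hnpos : (0 : ℝ) < (n : ℝ) := by rw [hnR]; exact hsR
  have e : ((a : ℝ) / D) + (b : ℝ) / D + (c : ℝ) / D = (n : ℝ) / D := by
    rw [hnR]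
    ring
  have e3 : ((a : ℝ) / D) ^ 2 + ((b : ℝ) / D) ^ 2 + ((c : ℝ) / D) ^ 2 = (y : ℝ) / (D : ℝ) ^ 2 := by
    rw [hyR]
    ring
  rw [e, e3]
  have e2 : 3 * ((y : ℝ) / (D : ℝ) ^ 2 / ((n : ℝ) / D) - (n : ℝ) / D / 3) ^ 2 / ((n : ℝ) / D) - 4 / 3 * ((n : ℝ) / D)
      = -(P : ℝ) / (3 * (n : ℝ) ^ 3 * D) := by
    rw [hPR, hER]
    field_simp
    ring
  rw [e2, div_le_div_iff₀ (by positivity) (by positivity)]
  nlinarith

/-- The functionals of the closure from the test functions. -/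
theorem funcs_of_tests {ι : Type*} [Fintype ι] (l : ι → Fin 3 → ℝ) (h : SSig l) :
    3 * xx l = sigFun l xTest + 2 ∧ QQ l = sigFun l qTest + 4 := by
  constructor
  · rw [sumF_eq_test l h]
    unfold xx
    ring
  · rw [QQ_eq_test l h]
    ring

end Vale.Agent.Lib.P154.Cl
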