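import Vale.Agent.Lib.P154_cl98.QProd

/-!
The third-moment functional of a capped signal in terms of the chi-square and fourth-moment
functionals.
-/

noncomputable section

open Finset

namespace Vale.Agent.Lib.P154.Cl

open Vale.Agent.Lib.P154
open Vale.Agent.Lib.Common.Kron

/-- The polynomial of the bound. -/
def polyB (ε D A C : ℝ) : ℝ := (1 - A) * ((1 + ε) * (2 * A) + 4 * D * A ^ 2) - (2 * A - C)

/-- Nonnegativity on the scaled inverted chamber. -/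
def CertB (μ ε D : ℝ) : Prop :=
  ∀ s0 s1 s2 : ℝ, 0 ≤ s0 → 0 ≤ s1 → 0 ≤ s2 → s0 + s1 + s2 = 1 →
    0 ≤ polyB ε D (μ ^ 2 * achi s1 s2) (-(μ ^ 3) * cchi s1 s2)

/-- Clearing denominators. -/
def coreB (den en dn K a ce : ℝ) : ℝ :=
  (K ^ 2 - a) * (2 * (den + en) * (a * K ^ 2) + 4 * dn * a ^ 2) - den * ((2 * (a * K) - ce) * K ^ 3)

theorem coreB_eq (den en dn K a ce : ℝ) (hK : K ≠ 0) (hd : den ≠ 0) :
    coreB den en dn K a ce = den * K ^ 6 * polyB (en / den) (dn / den) (a / K ^ 2) (ce / K ^ 3) := by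
  unfold coreB polyB
  field_simp

namespace PEB

open Vale.Agent.Lib.Common.Kron.PE

/-- The expression whose coefficients are checked: the variables are `u, v`. -/
def eB (mn md den en dn D1 : ℕ) : Vale.Agent.Lib.Common.Kron.PE :=
  let K := mul (c md) (Vale.Agent.Lib.P154.PE.eH 0 1)
  let a := mul (c (mn ^ 2)) (Vale.Agent.Lib.P154.PE.eA 0 1)
  let ce := neg (mul (c (mn ^ 3)) (Vale.Agent.Lib.P154.PE.eC 0 1))
  mul (pow K D1) (add (mul (add (pow K 2) (neg a))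
      (add (mul (c (2 * (den + en))) (mul a (pow K 2))) (mul (c (4 * dn)) (pow a 2))))
    (neg (mul (c den) (mul (add (mul (c 2) (mul a K)) (neg ce)) (pow K 3)))))

end PEB

theorem evalR_eB (mn md den en dn D1 : ℕ) (u v u' v' : ℝ) :
    Vale.Agent.Lib.Common.Kron.PE.evalR (ptv u v u' v') (PEB.eB mn md den en dn D1)
      = ((md : ℝ) * (1 + 2 * u + v)) ^ D1 * coreB den en dn ((md : ℝ) * (1 + 2 * u + v))
          ((mn : ℝ) ^ 2 * (u ^ 2 + u * v + v ^ 2))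
          (-((mn : ℝ) ^ 3 * ((2 * u + v) * (u + 2 * v) * (v - u)))) := by
  simp only [PEB.eB, Vale.Agent.Lib.P154.PE.eH, Vale.Agent.Lib.P154.PE.eA, Vale.Agent.Lib.P154.PE.eC,
    Vale.Agent.Lib.P154.PE.sub, Vale.Agent.Lib.P154.PE.mul3, Vale.Agent.Lib.Common.Kron.PE.evalR, ptv, coreB]
  push_cast
  ring

theorem coreB_nonneg_of_check {mn md den en dn D1 k : ℕ} {rad : List ℕ} (hmd : 0 < md)
    (hc : check (PEB.eB mn md den en dn D1) k rad = true) (u v : ℝ) (hu : 0 ≤ u) (hv : 0 ≤ v) :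
    0 ≤ coreB den en dn ((md : ℝ) * (1 + 2 * u + v))
          ((mn : ℝ) ^ 2 * (u ^ 2 + u * v + v ^ 2))
          (-((mn : ℝ) ^ 3 * ((2 * u + v) * (u + 2 * v) * (v - u)))) := by
  have h := nonneg_of_check hc (ptv u v 0 0) (ptv_nonneg hu hv le_rfl le_rfl)
  rw [evalR_eB] at h
  have hmd' : (0 : ℝ) < md := by exact_mod_cast hmd
  have h2 : 0 < (md : ℝ) * (1 + 2 * u + v) := by positivity
  exact nonneg_of_mul_nonneg_right h (by positivity)

/-- The open version of the certificate. -/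
theorem polyB_open_of_check {mn md den en dn D1 k : ℕ} {rad : List ℕ} (hmd : 0 < md) (hden : 0 < den)
    (hc : check (PEB.eB mn md den en dn D1) k rad = true)
    (s0 s1 s2 : ℝ) (k0 : 0 < s0) (k1 : 0 ≤ s1) (k2 : 0 ≤ s2) (hs' : s0 + s1 + s2 = 1) :
    0 ≤ polyB ((en : ℝ) / den) ((dn : ℝ) / den)
      (((mn : ℝ) / md) ^ 2 * achi s1 s2) (-(((mn : ℝ) / md) ^ 3) * cchi s1 s2) := by
  have hmd' : (0 : ℝ) < md := by exact_mod_cast hmd
  have hd' : (0 : ℝ) < den := by exact_mod_cast hden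
  set u' := s1 / (2 * s0) with hu'
  set v' := s2 / s0 with hv'
  have hu'0 : 0 ≤ u' := by positivity
  have hv'0 : 0 ≤ v' := by positivity
  have hC := coreB_nonneg_of_check hmd hc u' v' hu'0 hv'0
  have hk : 0 < (md : ℝ) * (1 + 2 * u' + v') := by positivity
  rw [coreB_eq _ _ _ _ _ _ hk.ne' hd'.ne'] at hC
  have hA2 := achi_scale s0 s1 s2 k0 hs'
  have hC2 := cchi_scale s0 s1 s2 k0 hs'
  rw [← hu', ← hv'] at hA2 hC2
  have e2 : ((mn : ℝ) ^ 2 * (u' ^ 2 + u' * v' + v' ^ 2)) / ((md : ℝ) * (1 + 2 * u' + v')) ^ 2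
      = ((mn : ℝ) / md) ^ 2 * achi s1 s2 := by
    rw [← hA2]
    field_simp
  have e3 : (-((mn : ℝ) ^ 3 * ((2 * u' + v') * (u' + 2 * v') * (v' - u')))) / ((md : ℝ) * (1 + 2 * u' + v')) ^ 3
      = -(((mn : ℝ) / md) ^ 3) * cchi s1 s2 := by
    rw [← hC2]
    field_simp
  rw [e2, e3] at hC
  exact nonneg_of_mul_nonneg_right hC (by positivity)

/-- The certificate on the closed simplex, by continuity. -/
theorem certB_of_check {mn md den en dn D1 k : ℕ} {rad : List ℕ} (hmd : 0 < md) (hden : 0 < den)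
    (hc : check (PEB.eB mn md den en dn D1) k rad = true) :
    CertB ((mn : ℝ) / md) ((en : ℝ) / den) ((dn : ℝ) / den) := by
  intro s0 s1 s2 k0 k1 k2 hs'
  set μ := (mn : ℝ) / md
  set ε := (en : ℝ) / den
  set D := (dn : ℝ) / den
  let g : ℝ → ℝ := fun τ => polyB ε D (μ ^ 2 * achi (τ * s1) (τ * s2)) (-(μ ^ 3) * cchi (τ * s1) (τ * s2))
  have hcont : Continuous g := by
    simp only [g, polyB, achi, cchi]
    fun_prop
  have hg : ∀ τ : ℝ, 0 < τ → τ < 1 → 0 ≤ g τ := by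
    intro τ hτ hτ1
    have h02 : 0 < 1 - τ * s1 - τ * s2 := by
      have : τ * (s1 + s2) ≤ τ * 1 := mul_le_mul_of_nonneg_left (by linarith) hτ.le
      nlinarith
    exact polyB_open_of_check hmd hden hc _ _ _ h02 (by positivity) (by positivity) (by ring)
  have hlim : Filter.Tendsto g (nhdsWithin 1 (Set.Iio 1)) (nhds (g 1)) :=
    (hcont.tendsto 1).mono_left nhdsWithin_le_nhds
  have hev : ∀ᶠ τ in nhdsWithin (1 : ℝ) (Set.Iio 1), 0 ≤ g τ := by
    have : Set.Ioo (0 : ℝ) 1 ∈ nhdsWithin (1 : ℝ) (Set.Iio 1) := Ioo_mem_nhdsLT (by norm_num)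
    filter_upwards [this] with τ hτ
    exact hg τ hτ.1 hτ.2
  have := ge_of_tendsto hlim hev
  simpa only [g, one_mul] using this

/-- Normalised pointwise bound. -/
theorem coreBnorm (a b c μ ε D : ℝ) (hμ : 0 < μ) (hc : CertB μ ε D) (ha : 0 < a) (hb : 0 < b) (hcc : 0 < c)
    (hs : a + b + c = 1) (h1 : a ≤ (1 + μ) / 3) (h2 : b ≤ (1 + μ) / 3) (h3 : c ≤ (1 + μ) / 3) :
    1 - 9 * K3 a b c ≤ (1 + ε) * (2 * A3 a b c) + 4 * D * A3 a b c ^ 2 := by
  obtain ⟨s0, s1, s2, k0, k1, k2, hss, hA', hC'⟩ := chamber_capped a b c μ hμ h1 h2 h3 hs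
  have hR := hc s0 s1 s2 k0 k1 k2 hss
  rw [← hA', ← hC'] at hR
  have h1A : A3 a b c < 1 := A3_lt_one ha hb hcc
  have hpos : 0 < a * b + b * c + c * a := by positivity
  rw [one_sub_nineK a b c hs hpos, div_le_iff₀ (by linarith)]
  unfold polyB at hR
  nlinarith [hR]

/-- Homogeneous bound. -/
theorem homB (a b c μ ε D : ℝ) (hμ : 0 < μ) (hc : CertB μ ε D) (ha : 0 < a) (hb : 0 < b) (hcc : 0 < c)
    (h1 : a ≤ (1 + μ) / 3 * (a + b + c)) (h2 : b ≤ (1 + μ) / 3 * (a + b + c)) (h3 : c ≤ (1 + μ) / 3 * (a + b + c)) :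
    (a + b + c) - 9 * K3 a b c ≤ (1 + ε) * (3 * fN a b c) + 3 * D * gQ a b c := by
  obtain ⟨N, a', b', c', hN0, hNe, ha', hb', hc', hs, rfl, rfl, rfl⟩ := norm_coord a b c ha hb hcc
  have e1 : N * a' + N * b' + N * c' = N := by rw [← mul_add, ← mul_add, hs, mul_one]
  rw [e1] at h1 h2 h3
  have h1' : a' ≤ (1 + μ) / 3 := by
    have : N * a' ≤ N * ((1 + μ) / 3) := by linarith
    exact le_of_mul_le_mul_left this hN0
  have h2' : b' ≤ (1 + μ) / 3 := by
    have : N * b' ≤ N * ((1 + μ) / 3) := by linarith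
    exact le_of_mul_le_mul_left this hN0
  have h3' : c' ≤ (1 + μ) / 3 := by
    have : N * c' ≤ N * ((1 + μ) / 3) := by linarith
    exact le_of_mul_le_mul_left this hN0
  have hcore := coreBnorm a' b' c' μ ε D hμ hc ha' hb' hc' hs h1' h2' h3'
  have hN1 : fN (N * a') (N * b') (N * c') = N * ((2 / 3) * A3 a' b' c') := by
    unfold fN
    rw [F3_smul N _ _ _ hN0.ne', e1, F3_eq_of_sum _ _ _ hs]; ring
  have hQ1 : gQ (N * a') (N * b') (N * c') = N * (4 / 3 * A3 a' b' c' ^ 2) := by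
    rw [gQ_smul N _ _ _ hN0.ne', gQ_norm _ _ _ hs]
  rw [hN1, hQ1, K3_smul N _ _ _ hN0.ne', e1]
  have := mul_le_mul_of_nonneg_left hcore hN0.le
  nlinarith [this]

section
variable {ι : Type*} [Fintype ι]

/-- The third-moment functional of a capped signal. -/
theorem BB_le {l : ι → Fin 3 → ℝ} {μ ε D : ℝ} (hμ : 0 < μ) (hc : CertB μ ε D) (h : IsSig l)
    (hcap : Capped μ l) :
    BB l ≤ (1 + ε) * (3 * xx l) + D * QQ l := by
  have b : ∑ t, ((l t 0 + l t 1 + l t 2) - 9 * K3 (l t 0) (l t 1) (l t 2))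
      ≤ ∑ t, ((1 + ε) * (3 * fN (l t 0) (l t 1) (l t 2)) + 3 * D * gQ (l t 0) (l t 1) (l t 2)) :=
    Finset.sum_le_sum fun t _ => homB _ _ _ μ ε D hμ hc (h.pos t 0) (h.pos t 1) (h.pos t 2)
      (hcap t 0) (hcap t 1) (hcap t 2)
  have e1 : ∑ t, ((l t 0 + l t 1 + l t 2) - 9 * K3 (l t 0) (l t 1) (l t 2)) = 3 - 9 * sumK l := by
    rw [Finset.sum_sub_distrib, sum_N h.tot, ← Finset.mul_sum]
    rfl
  have e2 : ∑ t, ((1 + ε) * (3 * fN (l t 0) (l t 1) (l t 2)) + 3 * D * gQ (l t 0) (l t 1) (l t 2))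
      = (1 + ε) * (3 * (3 * xx l)) + 3 * D * QQ l := by
    rw [Finset.sum_add_distrib, ← Finset.mul_sum, ← Finset.mul_sum, ← Finset.mul_sum, sum_f h.tot]
    rfl
  rw [e1, e2] at b
  unfold BB
  nlinarith [b]

/-- The fourth-moment functional through the channel. -/
theorem QQ_chan {l : ι → Fin 3 → ℝ} (h : WSig l) (lam : ℝ) : QQ (chan lam l) = lam ^ 4 * QQ l := by
  unfold QQ
  rw [Finset.mul_sum]
  refine Finset.sum_congr rfl fun t _ => ?_
  have hF := chan_F lam (l t 0) (l t 1) (l t 2) (h.Npos t)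
  have hN : chan lam l t 0 + chan lam l t 1 + chan lam l t 2 = l t 0 + l t 1 + l t 2 := by
    unfold chan
    ring
  unfold gQ
  rw [hN]
  have hF' : fN (chan lam l t 0) (chan lam l t 1) (chan lam l t 2) = lam ^ 2 * fN (l t 0) (l t 1) (l t 2) := hF
  rw [hF']
  ring

theorem QQ_prod_comm {κ : Type*} [Fintype κ] (l : ι → Fin 3 → ℝ) (l' : κ → Fin 3 → ℝ) :
    QQ (prodS l l') = QQ (prodS l' l) := by
  unfold QQ prodS
  rw [← Equiv.sum_comp (Equiv.prodComm ι κ)]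
  refine Finset.sum_congr rfl fun p _ => ?_
  simp only [Equiv.prodComm_apply, Prod.fst_swap, Prod.snd_swap, mul_comm]

theorem QQ_powS_succ (k : ℕ) (l : ι → Fin 3 → ℝ) : QQ (powS (k + 1) l) = QQ (prodS l (powS k l)) := by
  unfold QQ
  rw [sum_powS_succ gQ]

theorem QQ_powS_zero (l : ι → Fin 3 → ℝ) : QQ (powS 0 l) = 0 := by
  unfold QQ powS
  simp [gQ, fN, F3]
  norm_num

end

end Vale.Agent.Lib.P154.Cl
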