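import Vale.Agent.Lib.P154_cl98.Local

set_option linter.defProp false

/-!
The constants for `d ≥ 16`.
-/

noncomputable section

open Filter Topology

namespace Vale.Agent.Lib.P154.Cl

open Vale.Agent.Lib.P154
open Vale.Agent.Lib.Common.Kron

/-- Constants valid for the cap `1 / 4`, without fourth-moment terms. -/
def crude14 : XC := ⟨100, 176, 78, 0, 0⟩
/-- Constants valid for the cap `1 / 2`. -/
def closA : XC := ⟨10, 24, 9, 5, 60⟩
/-- Constants of the fourth-moment bound, cap `1 / 2`. -/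
def qA : QC := ⟨1, 2, 1, 5, 2, 1⟩
/-- Constants of the third-moment bound. -/
def bA : BC := ⟨10, 1, 20, 4, 3⟩
/-- All constants. -/
def P16 : Par := ⟨crude14, [closA], qA, [], bA⟩

def chk_crude14 : check (ePointC 1 4 100 176 78 0 0 8 8) 106 [18, 18, 16, 16] = true := by decide +kernel
def chk_closA : check (ePointC 1 2 10 24 9 5 60 0 0) 80 [10, 10, 8, 8] = true := by decide +kernel
def chk_qA : check (PEQ.ePolyQ 1 2 1 5 2 1) 172 [24, 24, 24, 24] = true := by decide +kernel
def chk_bA : check (PEB.eB 1 2 10 1 20 16) 70 [23, 23] = true := by decide +kernel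

theorem good_crude14 {μ : ℝ} (h : μ ≤ 1 / 4) : crude14.Good μ :=
  ⟨by decide, ((1 : ℕ) : ℝ) / (4 : ℕ), by norm_num; exact h,
    certC_of_check (by decide) (by decide) chk_crude14⟩

theorem good_closA {μ : ℝ} (h : μ ≤ 1 / 2) : closA.Good μ :=
  ⟨by decide, ((1 : ℕ) : ℝ) / (2 : ℕ), by norm_num; exact h,
    certC_of_check (by decide) (by decide) chk_closA⟩

theorem good_qA {μ : ℝ} (h : μ < 1 / 2) : qA.Good μ :=
  ⟨by decide, by decide, by decide, by decide, by norm_num [qA]; linarith, 172, [24, 24, 24, 24], chk_qA⟩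

/-- Validity of the constants. -/
theorem valid_P16 {μ : ℝ} (h0 : 0 < μ) (h1 : μ ≤ 1 / 4) :
    Valid P16 μ (((1 : ℕ) : ℝ) / (2 : ℕ)) where
  pos := h0
  lt := by linarith
  le₃ := by norm_num; linarith
  db := by decide
  dr := by decide
  cx := by
    intro c hc
    simp only [P16, List.mem_cons, List.not_mem_nil, or_false] at hc
    rcases hc with rfl | rfl
    · exact good_crude14 h1
    · exact good_closA (by linarith)
  qx := by
    intro c hc
    simp only [P16, List.mem_cons, List.not_mem_nil, or_false] at hc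
    rcases hc with rfl
    exact good_qA (by linarith)
  cb := certB_of_check (by decide) (by decide) chk_bA
  rho := by
    have : 0 < 1 - μ := by linarith
    norm_num [P16, bA]
    rw [inv_le_comm₀ this (by norm_num)]
    linarith

theorem closA_A : closA.A = 6 / 5 := by norm_num [XC.A, closA]
theorem closA_T : closA.T = 9 / 10 := by norm_num [XC.T, closA]
theorem closA_C1 : closA.C1 = 1 / 8 := by norm_num [XC.C1, closA]
theorem closA_C2 : closA.C2 = 3 / 2 := by norm_num [XC.C2, closA]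

/-- The conditions near the origin for `d ≥ 16`. -/
theorem localOK_16 {d : ℕ} (hd : 16 ≤ d) :
    LocalOK closA qA ((P16.b.en : ℝ) / P16.b.den) ((P16.b.dn : ℝ) / P16.b.den) d 3 (57 / 10) (1 / 10) (1 / 10) := by
  have hd' : (16 : ℝ) ≤ d := by exact_mod_cast hd
  have hd0 : (0 : ℝ) < d := by linarith
  set w : ℝ := 1 / 10 / d with hw
  have hw0 : 0 < w := by positivity
  have hw1 : w ≤ 1 / 160 := by
    rw [hw, div_le_iff₀ hd0]
    linarith
  have hqv : ((qA.g : ℝ) / qA.den = 5) ∧ ((qA.c3 : ℝ) / qA.den = 2) ∧ ((qA.c4 : ℝ) / qA.den = 1) := by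
    norm_num [qA]
  have hε : (P16.b.en : ℝ) / P16.b.den = 1 / 10 := by norm_num [P16, bA]
  have hD : (P16.b.dn : ℝ) / P16.b.den = 2 := by norm_num [P16, bA]
  rw [hε, hD]
  have e1 : ((d : ℝ) - 1) / (2 * d) = 1 / 2 - 5 * w := by
    rw [hw]
    field_simp
    ring
  have e2 : (1 / 10 : ℝ) * ((d : ℝ) - 1) / (2 * d) * (1 / 10) = (1 / 100) * (1 / 2 - 5 * w) := by
    rw [← e1]
    ring
  have e3 : (57 / 10 : ℝ) * ((d : ℝ) - 1) / (2 * d) = (57 / 10) * (1 / 2 - 5 * w) := by
    rw [← e1]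
    ring
  have e4 : (3 : ℝ) / d = 30 * w := by
    rw [hw]
    field_simp
    ring
  refine ⟨by omega, by norm_num, by norm_num, by norm_num, by norm_num, by norm_num, by norm_num, ?_, ?_, ?_, ?_,
    by norm_num, ?_, ?_⟩
  · rw [closA_A, closA_T, closA_C1, closA_C2]
    nlinarith
  · rw [hqv.1, hqv.2.1, hqv.2.2]
    nlinarith
  · rw [closA_A]
    norm_num
  · nlinarith
  · rw [e2, e3, e4]
    nlinarith
  · rw [e2]
    nlinarith

/-- Nonreconstruction from a chain. -/
theorem adv_16 {d N Xf Qf : ℕ} (hd : 16 ≤ d)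
    (hc : chainOK P16 (2 ^ 40) d N (2 * 2 ^ 40) (4 * 2 ^ 40) Xf Qf = true)
    (hX : 10 * Xf ≤ 2 ^ 40) (hQ : 100 * Qf ≤ 3 * 2 ^ 40) {μ : ℝ} (h0 : 0 < μ) (hKS : (d : ℝ) * μ ^ 2 ≤ 1) :
    Tendsto (advantage d 3 (-μ)) atTop (𝓝 0) := by
  have hd' : (16 : ℝ) ≤ d := by exact_mod_cast hd
  have h1 : μ ≤ 1 / 4 := by
    by_contra hlt
    push Not at hlt
    have : (1 / 4 : ℝ) ^ 2 < μ ^ 2 := by nlinarith
    nlinarith
  have hV := valid_P16 h0 h1
  have hS : 0 < 2 ^ 40 := by norm_num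
  have hd0 : 0 < d := by omega
  obtain ⟨k1, k2⟩ := chain_root hV hS hd0 hKS hc
  have hS' : (0 : ℝ) < 1099511627776 := by norm_num
  have hX' : (10 : ℝ) * Xf ≤ 1099511627776 := by
    have h5 : 10 * Xf ≤ 1099511627776 := by omega
    exact_mod_cast h5
  have hQ' : (100 : ℝ) * Qf ≤ 3 * 1099511627776 := by
    have h5 : 100 * Qf ≤ 3 * 1099511627776 := by omega
    exact_mod_cast h5
  push_cast at k1 k2
  have k1' : 3 * xx (lev d (-μ) N) ≤ 1 / 10 := by
    refine k1.trans ?_
    rw [div_le_iff₀ hS']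
    linarith
  have k2' : QQ (lev d (-μ) N) ≤ 3 * (1 / 10 : ℝ) ^ 2 := by
    refine k2.trans ?_
    rw [div_le_iff₀ hS']
    linarith
  exact adv_of_bound (cL := closA) (qL := qA) hV (by simp [P16]) (by simp [P16]) (localOK_16 hd) hKS (N := N) (Y0 := 1 / 10) (by norm_num)
    le_rfl k1' k2'

end Vale.Agent.Lib.P154.Cl
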