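import Vale.Agent.Lib.P154_cl98.Inst16
import Vale.Agent.Lib.P154.NegReg

set_option linter.defProp false

/-!
The constants for the tree with four children, from a bound on a level.
-/

noncomputable section

open Filter Topology

namespace Vale.Agent.Lib.P154.Cl

open Vale.Agent.Lib.P154
open Vale.Agent.Lib.Common.Kron

/-- A second set of constants for the cap `1 / 2`. -/
def closB : XC := ⟨100, 220, 80, 50, 600⟩
/-- A second set of constants for the fourth-moment bound, cap `1 / 2`. -/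
def qB : QC := ⟨1, 2, 10, 47, 0, 40⟩
/-- The third-moment constants for the cap `1 / 2`. -/
def bB : BC := ⟨100, 10, 192, 2, 1⟩
/-- All constants. -/
def P4 : Par := ⟨closA, [closB], qA, [qB], bB⟩

def chk_closB : check (ePointC 1 2 100 220 80 50 600 8 8) 106 [18, 18, 16, 16] = true := by decide +kernel
def chk_qB : check (PEQ.ePolyQ 1 2 10 47 0 40) 175 [24, 24, 24, 24] = true := by decide +kernel
def chk_bB : check (PEB.eB 1 2 100 10 192 32) 121 [39, 39] = true := by decide +kernel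

theorem good_closB {μ : ℝ} (h : μ ≤ 1 / 2) : closB.Good μ :=
  ⟨by decide, ((1 : ℕ) : ℝ) / (2 : ℕ), by norm_num; exact h,
    certC_of_check (by decide) (by decide) chk_closB⟩

theorem good_qB {μ : ℝ} (h : μ < 1 / 2) : qB.Good μ :=
  ⟨by decide, by decide, by decide, by decide, by norm_num [qB]; linarith, 175, [24, 24, 24, 24], chk_qB⟩

/-- Validity of the constants. -/
theorem valid_P4 {μ : ℝ} (h0 : 0 < μ) (h1 : μ < 1 / 2) :
    Valid P4 μ (((1 : ℕ) : ℝ) / (2 : ℕ)) where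
  pos := h0
  lt := h1
  le₃ := by norm_num; linarith
  db := by decide
  dr := by decide
  cx := by
    intro c hc
    simp only [P4, List.mem_cons, List.not_mem_nil, or_false] at hc
    rcases hc with rfl | rfl
    · exact good_closA h1.le
    · exact good_closB h1.le
  qx := by
    intro c hc
    simp only [P4, List.mem_cons, List.not_mem_nil, or_false] at hc
    rcases hc with rfl | rfl
    · exact good_qA h1
    · exact good_qB h1
  cb := certB_of_check (by decide) (by decide) chk_bB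
  rho := by
    have : 0 < 1 - μ := by linarith
    norm_num [P4, bB]
    rw [inv_le_comm₀ this (by norm_num)]
    linarith

/-- The conditions near the origin for `d = 4`. -/
theorem localOK_4 :
    LocalOK closA qA ((P4.b.en : ℝ) / P4.b.den) ((P4.b.dn : ℝ) / P4.b.den) 4 3 (11 / 2) (3 / 50) (1 / 20) := by
  have hqv : ((qA.g : ℝ) / qA.den = 5) ∧ ((qA.c3 : ℝ) / qA.den = 2) ∧ ((qA.c4 : ℝ) / qA.den = 1) := by
    norm_num [qA]
  have hε : (P4.b.en : ℝ) / P4.b.den = 1 / 10 := by norm_num [P4, bB]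
  have hD : (P4.b.dn : ℝ) / P4.b.den = 48 / 25 := by norm_num [P4, bB]
  rw [hε, hD]
  refine ⟨by norm_num, by norm_num, by norm_num, by norm_num, by norm_num, by norm_num, by norm_num, ?_, ?_, ?_, ?_,
    by norm_num, ?_, ?_⟩
  · rw [closA_A, closA_T, closA_C1, closA_C2]
    norm_num
  · rw [hqv.1, hqv.2.1, hqv.2.2]
    norm_num
  · rw [closA_A]
    norm_num
  · norm_num
  · norm_num
  · norm_num

/-- The scale of the arithmetic. -/
abbrev S4 : ℕ := 2 ^ 40

/-- The end of the chain for `d = 4`. -/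
theorem bound_of_chain4 {M X0 Q0 Xf Qf N : ℕ} (hc : chainOK P4 S4 4 M X0 Q0 Xf Qf = true)
    (hX : 20 * Xf ≤ S4) (hQ : 400 * Qf ≤ 3 * S4) {μ : ℝ} (h0 : 0 < μ) (h1 : μ < 1 / 2)
    (hX0 : 3 * xx (lev 4 (-μ) N) ≤ (X0 : ℝ) / S4) (hQ0 : QQ (lev 4 (-μ) N) ≤ (Q0 : ℝ) / S4) :
    3 * xx (lev 4 (-μ) (N + M)) ≤ 1 / 20 ∧ QQ (lev 4 (-μ) (N + M)) ≤ 3 * (1 / 20 : ℝ) ^ 2 := by
  have hV := valid_P4 h0 h1
  have hS : 0 < S4 := by norm_num
  have hd : 0 < 4 := by norm_num
  have hKS : ((4 : ℕ) : ℝ) * μ ^ 2 ≤ 1 := by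
    push_cast
    nlinarith
  unfold chainOK at hc
  cases hch : chainN P4 S4 4 M X0 Q0 with
  | none =>
    rw [hch] at hc
    simp at hc
  | some v =>
    obtain ⟨X', Q'⟩ := v
    rw [hch] at hc
    simp only [Bool.and_eq_true, Nat.ble_eq] at hc
    obtain ⟨k1, k2⟩ := chain_sound hV hS hd hKS M N X0 Q0 X' Q' hX0 hQ0 hch
    have hS' : (0 : ℝ) < 1099511627776 := by norm_num
    have e : ((S4 : ℕ) : ℝ) = 1099511627776 := by norm_num
    rw [e] at k1 k2
    have h1' : (X' : ℝ) ≤ Xf := by exact_mod_cast hc.1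
    have h2' : (Q' : ℝ) ≤ Qf := by exact_mod_cast hc.2
    have hX' : (20 : ℝ) * Xf ≤ 1099511627776 := by
      have h5 : 20 * Xf ≤ 1099511627776 := hX
      exact_mod_cast h5
    have hQ' : (400 : ℝ) * Qf ≤ 3 * 1099511627776 := by
      have h5 : 400 * Qf ≤ 3 * 1099511627776 := hQ
      exact_mod_cast h5
    constructor
    · refine k1.trans ?_
      rw [div_le_iff₀ hS']
      linarith
    · refine k2.trans ?_
      rw [div_le_iff₀ hS']
      linarith

/-- Nonreconstruction at and below the threshold for `d = 4`, from a bound on one level. -/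
theorem adv_4 {M X0 Q0 Xf Qf N : ℕ} (hc : chainOK P4 S4 4 M X0 Q0 Xf Qf = true)
    (hX : 20 * Xf ≤ S4) (hQ : 400 * Qf ≤ 3 * S4)
    (H : ∀ μ : ℝ, 0 < μ → μ < 1 / 2 → 3 * xx (lev 4 (-μ) N) ≤ (X0 : ℝ) / S4 ∧ QQ (lev 4 (-μ) N) ≤ (Q0 : ℝ) / S4)
    {μ : ℝ} (h0 : 0 < μ) (h1 : μ ≤ 1 / 2) :
    Tendsto (advantage 4 3 (-μ)) atTop (𝓝 0) := by
  have hcQ : 0 < cQ 4 (3 / 50) := by
    unfold cQ
    norm_num
  have key : ∀ ν : ℝ, 0 < ν → ν < 1 / 2 → ∀ n, xx (lev 4 (-ν) n) ≤ Bseq (N + M) (cQ 4 (3 / 50)) (1 / 20) n := by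
    intro ν hν0 hν1 n
    obtain ⟨k1, k2⟩ := H ν hν0 hν1
    obtain ⟨k3, k4⟩ := bound_of_chain4 hc hX hQ hν0 hν1 k1 k2
    have hKS : ((4 : ℕ) : ℝ) * ν ^ 2 ≤ 1 := by
      push_cast
      nlinarith
    exact xx_le_Bseq (cL := closA) (qL := qA) (valid_P4 hν0 hν1) (by simp [P4]) (by simp [P4]) localOK_4 hKS
      (by norm_num) le_rfl k3 k4 n
  have hB : Tendsto (Bseq (N + M) (cQ 4 (3 / 50)) (1 / 20)) atTop (𝓝 0) :=
    Bseq_tendsto hcQ (by norm_num) le_rfl localOK_4.hc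
  rcases h1.eq_or_lt with rfl | hlt
  · exact advantage_neg_half hB key
  · have hl1 : -(1 / 2) < -μ := by linarith
    have hl2 : -μ < 1 := by linarith
    have hW := lev_wsig' (d := 4) hl1 hl2
    apply advantage_tendsto_of_xx hW
    exact squeeze_zero (fun n => xx_nonneg (hW n)) (key μ h0 hlt) hB

end Vale.Agent.Lib.P154.Cl
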