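import Vale.Agent.Lib.P154_cl98.Lvl

/-!
The region near the origin: a closed-form bound for the powers, and convergence.
-/

noncomputable section

open Finset Filter Topology

namespace Vale.Agent.Lib.P154.Cl

open Vale.Agent.Lib.P154
open Vale.Agent.Lib.Common.Kron

/-- The arithmetic conditions of the closed-form bound. -/
structure LocalOK (c : XC) (qc : QC) (ε D : ℝ) (d : ℕ) (κ Γ e η : ℝ) : Prop where
  dd : 2 ≤ d
  hκ : 0 ≤ κ
  hΓ : 0 ≤ Γ
  he : 0 < e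
  hη : 0 < η
  hε : 0 ≤ ε
  hD : 0 ≤ D
  hX : c.T * (1 + ε + D * κ * (η / d)) + c.C1 * (κ * (η / d) + Γ * η / 2) + c.C2 * κ * (η / d) + e
    ≤ c.A * (1 - e * η / 2)
  hQ : (qc.g : ℝ) / qc.den + ((qc.c3 : ℝ) / qc.den) * (κ * (η / d) + Γ * η / 2)
    + ((qc.c4 : ℝ) / qc.den) * κ * (η / d) ≤ Γ
  hA : c.A * η ≤ 1
  hb : (1 + ε + D * κ * (η / d)) * (η / d) ≤ 1
  heη : e * η / 2 ≤ 1
  hK : κ / d + Γ * ((d : ℝ) - 1) / (2 * d) ≤ κ * (1 - e * ((d : ℝ) - 1) / (2 * d) * η) ^ 2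
  hc : e * ((d : ℝ) - 1) / (2 * d) * η ≤ 1

section seq
variable {c : XC} {qc : QC} {ε D : ℝ} {d : ℕ} {κ Γ e η : ℝ}

/-- The closed form for the powers. -/
theorem seq_bound (hL : LocalOK c qc ε D d κ Γ e η) {M R N : ℕ → ℝ} {y q' b' x : ℝ}
    (hM0 : ∀ k, 0 ≤ M k) (hR0 : ∀ k, 0 ≤ R k) (hN0 : ∀ k, 0 ≤ N k) (hN1 : ∀ k, N k ≤ 1)
    (hM00 : M 0 ≤ 0) (hR00 : R 0 ≤ 0) (hN00 : N 0 ≤ 0)
    (r1 : ∀ k, M (k + 1) ≤ recX c (M k) y (N k) (R k) q')
    (rq : ∀ k, R (k + 1) ≤ recQ qc (M k) y (R k) q')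
    (rb : ∀ k, N (k + 1) ≤ N k + b' - N k * b')
    (hy0 : 0 ≤ y) (hy : y ≤ x) (hq0 : 0 ≤ q') (hq : q' ≤ κ * x ^ 2)
    (hb : b' ≤ (1 + ε + D * κ * (η / d)) * x) (hdx : (d : ℝ) * x ≤ η) (k : ℕ) (hk : k ≤ d) :
    M k ≤ k * x - e * ((k : ℝ) * (k - 1) / 2) * x ^ 2
      ∧ R k ≤ k * (κ * x ^ 2) + Γ * ((k : ℝ) * (k - 1) / 2) * x ^ 2
      ∧ N k ≤ k * ((1 + ε + D * κ * (η / d)) * x) := by
  have hd2 : (2 : ℝ) ≤ d := by exact_mod_cast hL.dd
  have hd0 : (0 : ℝ) < d := by linarith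
  have hx0 : 0 ≤ x := hy0.trans hy
  have hxb : x ≤ η / d := by
    rw [le_div_iff₀ hd0]
    linarith
  have hxη : x ≤ η := by nlinarith
  have hηd0 : 0 ≤ η / d := by
    have := hL.hη
    positivity
  set βb := 1 + ε + D * κ * (η / d) with hβb
  have hβ0 : 0 ≤ βb := by
    have := hL.hε
    have := hL.hD
    have := hL.hκ
    positivity
  have hA0 : 0 ≤ c.A := by unfold XC.A; positivity
  have hT0 : 0 ≤ c.T := by unfold XC.T; positivity
  have hC1 : 0 ≤ c.C1 := by unfold XC.C1; positivity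
  have hC2 : 0 ≤ c.C2 := by unfold XC.C2; positivity
  have hg0 : (0 : ℝ) ≤ (qc.g : ℝ) / qc.den := by positivity
  have h30 : (0 : ℝ) ≤ (qc.c3 : ℝ) / qc.den := by positivity
  have h40 : (0 : ℝ) ≤ (qc.c4 : ℝ) / qc.den := by positivity
  have hκ := hL.hκ
  have hΓ := hL.hΓ
  have he := hL.he
  have hη := hL.hη
  induction k with
  | zero =>
    simp only [Nat.cast_zero, zero_mul, zero_div, mul_zero, sub_zero, add_zero]
    exact ⟨hM00, hR00, hN00⟩
  | succ k ih =>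
    obtain ⟨i1, i2, i3⟩ := ih (by omega)
    have hkd : (k : ℝ) + 1 ≤ d := by exact_mod_cast hk
    have hK0 : (0 : ℝ) ≤ k := Nat.cast_nonneg k
    set K : ℝ := (k : ℝ) with hKdef
    have hKx : K * x ≤ η := by
      have := mul_le_mul_of_nonneg_right hkd hx0
      linarith
    -- abbreviations
    set u := K * x - e * (K * (K - 1) / 2) * x ^ 2 with hu
    set v := K * (κ * x ^ 2) + Γ * (K * (K - 1) / 2) * x ^ 2 with hv
    set w := K * (βb * x) with hw
    have hKK : 0 ≤ K * (K - 1) / 2 := by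
      rcases Nat.eq_zero_or_pos k with h | h
      · rw [hKdef, h]
        simp
      · have : (1 : ℝ) ≤ K := by rw [hKdef]; exact_mod_cast h
        have h2 : 0 ≤ K - 1 := by linarith
        positivity
    have hux : u ≤ K * x := by
      have : 0 ≤ e * (K * (K - 1) / 2) * x ^ 2 := by positivity
      rw [hu]
      linarith
    have hAu : c.A * u ≤ 1 := by
      have h1 : u ≤ η := hux.trans hKx
      exact (mul_le_mul_of_nonneg_left h1 hA0).trans hL.hA
    have hAx : c.A * x ≤ 1 := (mul_le_mul_of_nonneg_left hxη hA0).trans hL.hA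
    have hbx : βb * x ≤ 1 := (mul_le_mul_of_nonneg_left hxb hβ0).trans hL.hb
    -- p := (K - 1) x
    have step1 := (r1 k).trans (recX_mono c (hM0 k) i1 hy0 hy (hN0 k) i3 (hR0 k) i2 hq0 hq hAu hAx)
    have step2 := (rq k).trans (recQ_mono qc (hM0 k) i1 hy0 hy (hR0 k) i2 hq0 hq)
    have step3 := (rb k).trans (recB_mono (hN1 k) i3 hb hbx)
    push_cast
    simp only [← hKdef]
    refine ⟨step1.trans ?_, step2.trans ?_, step3.trans ?_⟩
    · -- the chi-square functional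
      rcases Nat.eq_zero_or_pos k with h0 | hpos
      · have hK00 : K = 0 := by rw [hKdef, h0]; simp
        have hu0 : u = 0 := by rw [hu, hK00]; ring
        have hv0 : v = 0 := by rw [hv, hK00]; ring
        have hw0 : w = 0 := by rw [hw, hK00]; ring
        unfold recX
        rw [hu0, hv0, hw0, hK00]
        exact le_of_eq (by ring)
      · have hK1 : (1 : ℝ) ≤ K := by rw [hKdef]; exact_mod_cast hpos
        set p := (K - 1) * x with hp
        have hp0 : 0 ≤ p := mul_nonneg (by linarith) hx0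
        have hpη : p ≤ η := by
          have : (K - 1) * x ≤ K * x := mul_le_mul_of_nonneg_right (by linarith) hx0
          rw [hp]
          linarith
        have t1 : e * p / 2 ≤ e * η / 2 := by
          have := mul_le_mul_of_nonneg_left hpη he.le
          linarith
        have t0 : 0 ≤ 1 - e * p / 2 := by linarith [hL.heη]
        have t2 : 1 - e * p / 2 ≤ 1 := by
          have : 0 ≤ e * p / 2 := by positivity
          linarith
        have eu : u = K * x * (1 - e * p / 2) := by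
          rw [hu, hp]
          ring
        have ev : v = K * x * (κ * x + Γ * p / 2) := by
          rw [hv, hp]
          ring
        -- the bracket
        have b1 : c.A * (1 - e * η / 2) ≤ c.A * (1 - e * p / 2) :=
          mul_le_mul_of_nonneg_left (by linarith) hA0
        have b2 : c.C1 * (κ * x + Γ * p / 2) ≤ c.C1 * (κ * (η / d) + Γ * η / 2) := by
          apply mul_le_mul_of_nonneg_left _ hC1
          have := mul_le_mul_of_nonneg_left hxb hκ
          have := mul_le_mul_of_nonneg_left hpη hΓ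
          linarith
        have b3 : c.C2 * κ * x * (1 - e * p / 2) ≤ c.C2 * κ * (η / d) := by
          have h5 : 0 ≤ c.C2 * κ := mul_nonneg hC2 hκ
          calc c.C2 * κ * x * (1 - e * p / 2) ≤ c.C2 * κ * x * 1 :=
                mul_le_mul_of_nonneg_left t2 (mul_nonneg h5 hx0)
            _ = c.C2 * κ * x := by ring
            _ ≤ c.C2 * κ * (η / d) := mul_le_mul_of_nonneg_left hxb h5
        have hbr : c.T * βb + c.C1 * (κ * x + Γ * p / 2) + c.C2 * κ * x * (1 - e * p / 2) + e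
            ≤ c.A * (1 - e * p / 2) := by
          have := hL.hX
          rw [← hβb] at this
          linarith
        have hmul := mul_le_mul_of_nonneg_left hbr (show 0 ≤ K * x ^ 2 by positivity)
        unfold recX
        have hgoal : u + x - c.A * (u * x) + c.T * (x * w) + c.C1 * (v * x) + c.C2 * (u * (κ * x ^ 2))
            - (u + x - e * K * x ^ 2)
            = K * x ^ 2 * (c.T * βb + c.C1 * (κ * x + Γ * p / 2) + c.C2 * κ * x * (1 - e * p / 2) + e)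
              - K * x ^ 2 * (c.A * (1 - e * p / 2)) := by
          rw [eu, ev, hw]
          ring
        have hr : (K + 1) * x - e * ((K + 1) * (K + 1 - 1) / 2) * x ^ 2 = u + x - e * K * x ^ 2 := by
          rw [hu]
          ring
        rw [hr]
        linarith
    · -- the fourth moment
      rcases Nat.eq_zero_or_pos k with h0 | hpos
      · have hK00 : K = 0 := by rw [hKdef, h0]; simp
        have hu0 : u = 0 := by rw [hu, hK00]; ring
        have hv0 : v = 0 := by rw [hv, hK00]; ring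
        unfold recQ
        rw [hu0, hv0, hK00]
        exact le_of_eq (by ring)
      · have hK1 : (1 : ℝ) ≤ K := by rw [hKdef]; exact_mod_cast hpos
        set p := (K - 1) * x with hp
        have hp0 : 0 ≤ p := mul_nonneg (by linarith) hx0
        have hpη : p ≤ η := by
          have : (K - 1) * x ≤ K * x := mul_le_mul_of_nonneg_right (by linarith) hx0
          rw [hp]
          linarith
        have ev : v = K * x * (κ * x + Γ * p / 2) := by
          rw [hv, hp]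
          ring
        have b2 : κ * x + Γ * p / 2 ≤ κ * (η / d) + Γ * η / 2 := by
          have := mul_le_mul_of_nonneg_left hxb hκ
          have := mul_le_mul_of_nonneg_left hpη hΓ
          linarith
        have hbr : (qc.g : ℝ) / qc.den + ((qc.c3 : ℝ) / qc.den) * (κ * x + Γ * p / 2)
            + ((qc.c4 : ℝ) / qc.den) * κ * x ≤ Γ := by
          have h6 := mul_le_mul_of_nonneg_left b2 h30
          have h7 := mul_le_mul_of_nonneg_left hxb (mul_nonneg h40 hκ)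
          have := hL.hQ
          linarith
        have hmul := mul_le_mul_of_nonneg_left hbr (show 0 ≤ K * x ^ 2 by positivity)
        have huxx : ((qc.g : ℝ) / qc.den) * (u * x) ≤ ((qc.g : ℝ) / qc.den) * (K * x * x) :=
          mul_le_mul_of_nonneg_left (mul_le_mul_of_nonneg_right hux hx0) hg0
        have huq : ((qc.c4 : ℝ) / qc.den) * (u * (κ * x ^ 2)) ≤ ((qc.c4 : ℝ) / qc.den) * (K * x * (κ * x ^ 2)) :=
          mul_le_mul_of_nonneg_left (mul_le_mul_of_nonneg_right hux (by positivity)) h40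
        unfold recQ
        have hr : (K + 1) * (κ * x ^ 2) + Γ * ((K + 1) * (K + 1 - 1) / 2) * x ^ 2
            = v + κ * x ^ 2 + Γ * K * x ^ 2 := by
          rw [hv]
          ring
        rw [hr]
        have e3 : ((qc.c3 : ℝ) / qc.den) * (v * x)
            = K * x ^ 2 * (((qc.c3 : ℝ) / qc.den) * (κ * x + Γ * p / 2)) := by
          rw [ev]
          ring
        rw [e3]
        linarith
    · -- the third moment
      have h9 : 0 ≤ w * (βb * x) := by positivity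
      have e9 : (K + 1) * (βb * x) = w + βb * x := by
        rw [hw]
        ring
      rw [e9]
      linarith

end seq

section level
variable {d : ℕ} {μ μ₃ κ Γ e η : ℝ} {P : Par} {cL : XC} {qL : QC}

/-- The constant of the quadratic decrease. -/
def cQ (d : ℕ) (e : ℝ) : ℝ := e * ((d : ℝ) - 1) / (2 * d)

/-- One level near the origin. -/
theorem local_level (hV : Valid P μ μ₃) (hcL : cL ∈ P.c0 :: P.cs) (hqL : qL ∈ P.q0 :: P.qs)
    (hL : LocalOK cL qL ((P.b.en : ℝ) / P.b.den) ((P.b.dn : ℝ) / P.b.den) d κ Γ e η)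
    (hKS : (d : ℝ) * μ ^ 2 ≤ 1) (n : ℕ) {Y : ℝ} (hY0 : 0 ≤ Y) (hYη : Y ≤ η)
    (h1 : 3 * xx (lev d (-μ) n) ≤ Y) (h2 : QQ (lev d (-μ) n) ≤ κ * Y ^ 2) :
    3 * xx (lev d (-μ) (n + 1)) ≤ Y - cQ d e * Y ^ 2 ∧ QQ (lev d (-μ) (n + 1)) ≤ κ * (Y - cQ d e * Y ^ 2) ^ 2 := by
  have hl1 : -(1 / 2) < -μ := by linarith [hV.lt]
  have hl2 : -μ < 1 := by linarith [hV.pos]
  have hW := lev_wsig' (d := d) hl1 hl2 n
  have hμ3 : 0 < μ₃ := hV.pos.trans_le hV.le₃
  obtain ⟨hs, hc1, hc3, hcq⟩ := chan_facts (d := d) hV n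
  set l₀ := chan (-μ) (lev d (-μ) n) with hl₀
  have hx := xx_chan hW (-μ)
  have hq := QQ_chan hW (-μ)
  rw [← hl₀] at hx hq
  have hμsq : (-μ) ^ 2 = μ ^ 2 := by ring
  have hμ4 : (-μ) ^ 4 = μ ^ 4 := by ring
  rw [hμsq] at hx
  rw [hμ4] at hq
  have hX0 : 0 ≤ 3 * xx (lev d (-μ) n) := by
    have := xx_nonneg hW
    linarith
  have hQ0 : 0 ≤ QQ (lev d (-μ) n) := QQ_nonneg hW
  have hd2 : (2 : ℝ) ≤ d := by exact_mod_cast hL.dd
  have hd0 : (0 : ℝ) < d := by linarith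
  set ε := (P.b.en : ℝ) / P.b.den with hε
  set D := (P.b.dn : ℝ) / P.b.den with hD
  set x := Y / d with hxd
  have hx0 : 0 ≤ x := by positivity
  have hxY : (d : ℝ) * x = Y := by
    rw [hxd]
    field_simp
  have hxb : x ≤ η / d := div_le_div_of_nonneg_right hYη hd0.le
  have hμ2d : μ ^ 2 ≤ 1 / d := by
    rw [le_div_iff₀ hd0]
    linarith
  have hμ4d : μ ^ 4 ≤ 1 / (d : ℝ) ^ 2 := by
    have e4 : μ ^ 4 = μ ^ 2 * μ ^ 2 := by ring
    have e5 : (1 : ℝ) / (d : ℝ) ^ 2 = 1 / d * (1 / d) := by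
      field_simp
    rw [e4, e5]
    exact mul_le_mul hμ2d hμ2d (by positivity) (by positivity)
  have hy0 : 0 ≤ 3 * xx l₀ := by
    have h8 := xx_nonneg hs.toW
    linarith
  have hq0 : 0 ≤ QQ l₀ := QQ_nonneg hs.toW
  have hyx : 3 * xx l₀ ≤ x := by
    have e6 : 3 * xx l₀ = μ ^ 2 * (3 * xx (lev d (-μ) n)) := by
      rw [hx]
      ring
    rw [e6]
    have : μ ^ 2 * (3 * xx (lev d (-μ) n)) ≤ 1 / d * Y := mul_le_mul hμ2d h1 hX0 (by positivity)
    refine this.trans (le_of_eq ?_)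
    rw [hxd]
    ring
  have hqx : QQ l₀ ≤ κ * x ^ 2 := by
    rw [hq]
    have : μ ^ 4 * QQ (lev d (-μ) n) ≤ 1 / (d : ℝ) ^ 2 * (κ * Y ^ 2) := mul_le_mul hμ4d h2 hQ0 (by positivity)
    refine this.trans (le_of_eq ?_)
    rw [hxd]
    field_simp
  have hb : BB l₀ ≤ (1 + ε + D * κ * (η / d)) * x := by
    have h3 := BB_le hμ3 hV.cb hs hc3
    rw [← hε, ← hD] at h3
    have hε0 : 0 ≤ ε := by positivity
    have hD0 : 0 ≤ D := by positivity
    have h4 := mul_le_mul_of_nonneg_left hyx (show 0 ≤ 1 + ε by positivity)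
    have h5 := mul_le_mul_of_nonneg_left hqx hD0
    have h6 : D * (κ * x ^ 2) ≤ D * κ * (η / d) * x := by
      have : D * κ * x * x ≤ D * κ * (η / d) * x :=
        mul_le_mul_of_nonneg_right (mul_le_mul_of_nonneg_left hxb (mul_nonneg hD0 hL.hκ)) hx0
      calc D * (κ * x ^ 2) = D * κ * x * x := by ring
        _ ≤ _ := this
    have e7 : (1 + ε + D * κ * (η / d)) * x = (1 + ε) * x + D * κ * (η / d) * x := by ring
    rw [e7]
    linarith
  have key := seq_bound hL (M := fun k => 3 * xx (powS k l₀)) (R := fun k => QQ (powS k l₀))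
    (N := fun k => BB (powS k l₀)) (y := 3 * xx l₀) (q' := QQ l₀) (b' := BB l₀) (x := x)
    (fun k => by
      have := xx_nonneg (powS_isSig hs k).toW
      linarith)
    (fun k => QQ_nonneg (powS_isSig hs k).toW)
    (fun k => BB_nonneg (powS_isSig hs k))
    (fun k => BB_le_one (powS_isSig hs k).toW)
    (by
      have := xx_powS_zero_le l₀
      linarith)
    (QQ_powS_zero l₀).le
    (BB_powS_zero_le l₀)
    (fun k => r_X_good cL (hV.cx cL hcL) hV.pos hs hc1 k)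
    (fun k => r_Q_good qL (hV.qx qL hqL) hs (hcq qL hqL) k)
    (fun k => N_rec_neg hs k)
    hy0 hyx hq0 hqx hb (by rw [hxY]; exact hYη) d le_rfl
  obtain ⟨k1, k2, -⟩ := key
  have hY2 : x ^ 2 = Y ^ 2 / (d : ℝ) ^ 2 := by
    rw [hxd]
    field_simp
  have ec1 : (d : ℝ) * x - e * ((d : ℝ) * ((d : ℝ) - 1) / 2) * x ^ 2 = Y - cQ d e * Y ^ 2 := by
    rw [hxY, hY2]
    unfold cQ
    field_simp
  have ec2 : (d : ℝ) * (κ * x ^ 2) + Γ * ((d : ℝ) * ((d : ℝ) - 1) / 2) * x ^ 2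
      = (κ / d + Γ * ((d : ℝ) - 1) / (2 * d)) * Y ^ 2 := by
    rw [hY2]
    field_simp
  rw [ec1] at k1
  rw [ec2] at k2
  rw [lev_succ, ← hl₀]
  refine ⟨k1, ?_⟩
  have hc0 : 0 ≤ cQ d e := by
    unfold cQ
    have h8 := hL.he
    have h9 : 0 ≤ (d : ℝ) - 1 := by linarith
    exact div_nonneg (mul_nonneg h8.le h9) (by positivity)
  have hcη : cQ d e * η ≤ 1 := hL.hc
  have hcY : cQ d e * Y ≤ cQ d e * η := mul_le_mul_of_nonneg_left hYη hc0
  have hK := hL.hK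
  change κ / d + Γ * ((d : ℝ) - 1) / (2 * d) ≤ κ * (1 - cQ d e * η) ^ 2 at hK
  have hs1 : 0 ≤ 1 - cQ d e * η := by linarith
  have hs2 : 1 - cQ d e * η ≤ 1 - cQ d e * Y := by linarith
  have hs3 : (1 - cQ d e * η) ^ 2 ≤ (1 - cQ d e * Y) ^ 2 := by
    exact pow_le_pow_left₀ hs1 hs2 2
  have h10 : κ * (1 - cQ d e * η) ^ 2 ≤ κ * (1 - cQ d e * Y) ^ 2 := mul_le_mul_of_nonneg_left hs3 hL.hκ
  have h11 : (κ / d + Γ * ((d : ℝ) - 1) / (2 * d)) * Y ^ 2 ≤ κ * (1 - cQ d e * Y) ^ 2 * Y ^ 2 :=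
    mul_le_mul_of_nonneg_right (hK.trans h10) (by positivity)
  have e12 : κ * (Y - cQ d e * Y ^ 2) ^ 2 = κ * (1 - cQ d e * Y) ^ 2 * Y ^ 2 := by ring
  rw [e12]
  exact k2.trans h11

/-- The comparison sequence. -/
def Yseq (c Y0 : ℝ) : ℕ → ℝ
  | 0 => Y0
  | n + 1 => Yseq c Y0 n - c * Yseq c Y0 n ^ 2

theorem Yseq_bounds {c Y0 η : ℝ} (hc : 0 ≤ c) (h0 : 0 ≤ Y0) (h1 : Y0 ≤ η) (hcη : c * η ≤ 1) (n : ℕ) :
    0 ≤ Yseq c Y0 n ∧ Yseq c Y0 n ≤ η := by
  induction n with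
  | zero => exact ⟨h0, h1⟩
  | succ n ih =>
    obtain ⟨i0, i1⟩ := ih
    have h2 : c * Yseq c Y0 n ≤ 1 := (mul_le_mul_of_nonneg_left i1 hc).trans hcη
    simp only [Yseq]
    constructor
    · nlinarith [mul_nonneg i0 (sub_nonneg.2 h2)]
    · have : 0 ≤ c * Yseq c Y0 n ^ 2 := by positivity
      linarith

theorem Yseq_tendsto {c Y0 η : ℝ} (hc : 0 < c) (h0 : 0 ≤ Y0) (h1 : Y0 ≤ η) (hcη : c * η ≤ 1) :
    Tendsto (Yseq c Y0) atTop (𝓝 0) :=
  tendsto_of_quad hc (fun n => (Yseq_bounds hc.le h0 h1 hcη n).1) (fun n => le_of_eq rfl)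

/-- All levels beyond the start of the local region. -/
theorem local_all (hV : Valid P μ μ₃) (hcL : cL ∈ P.c0 :: P.cs) (hqL : qL ∈ P.q0 :: P.qs)
    (hL : LocalOK cL qL ((P.b.en : ℝ) / P.b.den) ((P.b.dn : ℝ) / P.b.den) d κ Γ e η)
    (hKS : (d : ℝ) * μ ^ 2 ≤ 1) {N : ℕ} {Y0 : ℝ} (hY0 : 0 ≤ Y0) (hYη : Y0 ≤ η)
    (h1 : 3 * xx (lev d (-μ) N) ≤ Y0) (h2 : QQ (lev d (-μ) N) ≤ κ * Y0 ^ 2) (n : ℕ) :
    3 * xx (lev d (-μ) (N + n)) ≤ Yseq (cQ d e) Y0 n ∧ QQ (lev d (-μ) (N + n)) ≤ κ * Yseq (cQ d e) Y0 n ^ 2 := by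
  have hd2 : (2 : ℝ) ≤ d := by exact_mod_cast hL.dd
  have hc0 : 0 ≤ cQ d e := by
    unfold cQ
    have h8 := hL.he
    have h9 : 0 ≤ (d : ℝ) - 1 := by linarith
    exact div_nonneg (mul_nonneg h8.le h9) (by positivity)
  induction n with
  | zero => exact ⟨h1, h2⟩
  | succ n ih =>
    obtain ⟨i0, i1⟩ := Yseq_bounds hc0 hY0 hYη hL.hc n
    exact local_level hV hcL hqL hL hKS (N + n) i0 i1 ih.1 ih.2

/-- The uniform bound. -/
def Bseq (N : ℕ) (c Y0 : ℝ) (n : ℕ) : ℝ := if n < N then 2 / 3 else Yseq c Y0 (n - N) / 3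

theorem Bseq_tendsto {N : ℕ} {c Y0 η : ℝ} (hc : 0 < c) (h0 : 0 ≤ Y0) (h1 : Y0 ≤ η) (hcη : c * η ≤ 1) :
    Tendsto (Bseq N c Y0) atTop (𝓝 0) := by
  have hY := Yseq_tendsto hc h0 h1 hcη
  have h3 : Tendsto (fun n => Yseq c Y0 n / 3) atTop (𝓝 0) := by
    simpa using hY.div_const (3 : ℝ)
  have h4 : Tendsto (fun n : ℕ => Yseq c Y0 (n - N) / 3) atTop (𝓝 0) :=
    h3.comp (tendsto_sub_atTop_nat N)
  refine h4.congr' ?_
  filter_upwards [eventually_ge_atTop N] with n hn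
  unfold Bseq
  rw [if_neg (by omega)]

/-- The bound at every level. -/
theorem xx_le_Bseq (hV : Valid P μ μ₃) (hcL : cL ∈ P.c0 :: P.cs) (hqL : qL ∈ P.q0 :: P.qs)
    (hL : LocalOK cL qL ((P.b.en : ℝ) / P.b.den) ((P.b.dn : ℝ) / P.b.den) d κ Γ e η)
    (hKS : (d : ℝ) * μ ^ 2 ≤ 1) {N : ℕ} {Y0 : ℝ} (hY0 : 0 ≤ Y0) (hYη : Y0 ≤ η)
    (h1 : 3 * xx (lev d (-μ) N) ≤ Y0) (h2 : QQ (lev d (-μ) N) ≤ κ * Y0 ^ 2) (n : ℕ) :
    xx (lev d (-μ) n) ≤ Bseq N (cQ d e) Y0 n := by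
  have hl1 : -(1 / 2) < -μ := by linarith [hV.lt]
  have hl2 : -μ < 1 := by linarith [hV.pos]
  unfold Bseq
  split_ifs with hn
  · exact xx_le_two_thirds' (lev_wsig' hl1 hl2 n)
  · have e : n = N + (n - N) := by omega
    have := (local_all hV hcL hqL hL hKS hY0 hYη h1 h2 (n - N)).1
    rw [← e] at this
    linarith

/-- Nonreconstruction from a bound on a level. -/
theorem adv_of_bound (hV : Valid P μ μ₃) (hcL : cL ∈ P.c0 :: P.cs) (hqL : qL ∈ P.q0 :: P.qs)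
    (hL : LocalOK cL qL ((P.b.en : ℝ) / P.b.den) ((P.b.dn : ℝ) / P.b.den) d κ Γ e η)
    (hKS : (d : ℝ) * μ ^ 2 ≤ 1) {N : ℕ} {Y0 : ℝ} (hY0 : 0 ≤ Y0) (hYη : Y0 ≤ η)
    (h1 : 3 * xx (lev d (-μ) N) ≤ Y0) (h2 : QQ (lev d (-μ) N) ≤ κ * Y0 ^ 2) :
    Tendsto (advantage d 3 (-μ)) atTop (𝓝 0) := by
  have hl1 : -(1 / 2) < -μ := by linarith [hV.lt]
  have hl2 : -μ < 1 := by linarith [hV.pos]
  have hW := lev_wsig' (d := d) hl1 hl2
  apply advantage_tendsto_of_xx hW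
  have hd2 : (2 : ℝ) ≤ d := by exact_mod_cast hL.dd
  have hc0 : 0 < cQ d e := by
    unfold cQ
    have h8 := hL.he
    have h9 : 0 < (d : ℝ) - 1 := by linarith
    exact div_pos (mul_pos h8 h9) (by positivity)
  refine squeeze_zero (fun n => xx_nonneg (hW n)) (fun n => xx_le_Bseq hV hcL hqL hL hKS hY0 hYη h1 h2 n) ?_
  exact Bseq_tendsto hc0 hY0 hYη hL.hc

end level

end Vale.Agent.Lib.P154.Cl
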