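import Vale.Agent.Lib.P154_cl98.Rec

/-!
One level of the tree and chains of levels.
-/

noncomputable section

open Finset Filter Topology

namespace Vale.Agent.Lib.P154.Cl

open Vale.Agent.Lib.P154
open Vale.Agent.Lib.Common.Kron

section
variable {ι : Type*} [Fintype ι]

theorem gQ_le_two_fN {a b c : ℝ} (ha : 0 ≤ a) (hb : 0 ≤ b) (hc : 0 ≤ c) (hN : 0 < a + b + c) :
    gQ a b c ≤ 2 * fN a b c := by
  have h0 : 0 ≤ fN a b c := by
    unfold fN
    have := F3_ge a b c hN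
    linarith
  have h1 : fN a b c ≤ 2 / 3 * (a + b + c) := by
    unfold fN
    have := F3_mul_le ha hb hc hN
    linarith
  unfold gQ
  rw [div_le_iff₀ hN]
  nlinarith [mul_le_mul_of_nonneg_left h1 h0]

theorem QQ_le_two {l : ι → Fin 3 → ℝ} (h : WSig l) : QQ l ≤ 2 * (3 * xx l) := by
  have e := sum_f h.tot
  rw [← e, Finset.mul_sum]
  exact Finset.sum_le_sum fun t _ => gQ_le_two_fN (h.nonneg t 0) (h.nonneg t 1) (h.nonneg t 2) (h.Npos t)

/-- The recursion for the chi-square functional of powers. -/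
theorem r_X (c : XC) {μ' : ℝ} (hμ' : 0 < μ') (hden : 0 < c.den)
    (hc : CertC μ' ((c.bn : ℝ) / c.den) ((c.tn : ℝ) / c.den) ((c.g1 : ℝ) / c.den) ((c.g2 : ℝ) / c.den))
    {l : ι → Fin 3 → ℝ} (h : IsSig l) (hcap : Capped μ' l) (k : ℕ) :
    3 * xx (powS (k + 1) l) ≤ recX c (3 * xx (powS k l)) (3 * xx l) (BB (powS k l)) (QQ (powS k l)) (QQ l) := by
  rw [xx_powS_succ, xx_prod_comm]
  have key := xx_prod_C hμ' hc (powS_isSig h k) h hcap
  have hd : (c.den : ℝ) ≠ 0 := by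
    have : (0 : ℝ) < c.den := by exact_mod_cast hden
    exact this.ne'
  have e1 : c.A = (c.bn : ℝ) / c.den / 2 := by
    unfold XC.A
    field_simp
  have e2 : c.C1 = (c.g1 : ℝ) / c.den / 4 := by
    unfold XC.C1
    field_simp
  have e3 : c.C2 = (c.g2 : ℝ) / c.den / 4 := by
    unfold XC.C2
    field_simp
  unfold recX
  rw [e1, e2, e3]
  unfold XC.T
  nlinarith [key]

/-- The recursion for the fourth-moment functional of powers. -/
theorem r_Q (c : QC) (hmn0 : 0 < c.mn) (hmd : 0 < c.md) (hden : 0 < c.den) (hmn : 2 * c.mn ≤ c.md) {Kb : ℕ} {rad : List ℕ}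
    (hc : check (PEQ.ePolyQ c.mn c.md c.den c.g c.c3 c.c4) Kb rad = true)
    {l : ι → Fin 3 → ℝ} (h : IsSig l) (hcap : StrictCap ((c.mn : ℝ) / c.md) l) (k : ℕ) :
    QQ (powS (k + 1) l) ≤ recQ c (3 * xx (powS k l)) (3 * xx l) (QQ (powS k l)) (QQ l) := by
  rw [QQ_powS_succ, QQ_prod_comm]
  have key := QQ_prod hmn0 hmd hden hmn hc (powS_isSig h k) h hcap
  unfold recQ
  nlinarith [key]

end

/-- The certificate of one set of constants, with its cap. -/
def XC.Good (c : XC) (μ : ℝ) : Prop :=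
  0 < c.den ∧ ∃ μ' : ℝ, μ ≤ μ' ∧ CertC μ' ((c.bn : ℝ) / c.den) ((c.tn : ℝ) / c.den) ((c.g1 : ℝ) / c.den)
    ((c.g2 : ℝ) / c.den)

/-- The certificate of one set of constants of the fourth-moment bound, with its cap. -/
def QC.Good (c : QC) (μ : ℝ) : Prop :=
  0 < c.den ∧ 0 < c.mn ∧ 0 < c.md ∧ 2 * c.mn ≤ c.md ∧ μ < (c.mn : ℝ) / c.md ∧
    ∃ (Kb : ℕ) (rad : List ℕ), check (PEQ.ePolyQ c.mn c.md c.den c.g c.c3 c.c4) Kb rad = true

/-- The hypotheses that make the constants valid for `μ`. -/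
structure Valid (P : Par) (μ μ₃ : ℝ) : Prop where
  pos : 0 < μ
  lt : μ < 1 / 2
  le₃ : μ ≤ μ₃
  db : 0 < P.b.den
  dr : 0 < P.b.rd
  cx : ∀ c ∈ P.c0 :: P.cs, c.Good μ
  qx : ∀ c ∈ P.q0 :: P.qs, c.Good μ
  cb : CertB μ₃ ((P.b.en : ℝ) / P.b.den) ((P.b.dn : ℝ) / P.b.den)
  rho : 1 / (1 - μ) ≤ (P.b.rn : ℝ) / P.b.rd

section level
variable {d : ℕ} {μ μ₃ : ℝ} {P : Par}

/-- Facts about the channel output. -/
theorem chan_facts (hV : Valid P μ μ₃) (n : ℕ) :
    IsSig (chan (-μ) (lev d (-μ) n)) ∧ Capped μ (chan (-μ) (lev d (-μ) n))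
      ∧ Capped μ₃ (chan (-μ) (lev d (-μ) n))
      ∧ ∀ c ∈ P.q0 :: P.qs, StrictCap ((c.mn : ℝ) / c.md) (chan (-μ) (lev d (-μ) n)) := by
  have hl1 : -(1 / 2) < -μ := by linarith [hV.lt]
  have hl2 : -μ < 1 := by linarith [hV.pos]
  have hW := lev_wsig' (d := d) hl1 hl2 n
  have hS := chan_isSig' hW hl1 hl2
  have hcap : Capped μ (chan (-μ) (lev d (-μ) n)) := chan_capped hW hV.pos.le
  have hN : ∀ t, 0 < chan (-μ) (lev d (-μ) n) t 0 + chan (-μ) (lev d (-μ) n) t 1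
      + chan (-μ) (lev d (-μ) n) t 2 := fun t => by
    have h0 := hS.pos t 0
    have h1 := hS.pos t 1
    have h2 := hS.pos t 2
    positivity
  refine ⟨hS, hcap, hcap.mono hV.le₃ fun t => (hN t).le, fun c hc t i => ?_⟩
  have h := hcap t i
  have hlt := (hV.qx c hc).2.2.2.2.1
  have h2 := mul_lt_mul_of_pos_right (show (1 + μ) / 3 < (1 + (c.mn : ℝ) / c.md) / 3 by linarith) (hN t)
  exact lt_of_le_of_lt h h2

theorem x_le_of (hd : 0 < d) {S : ℕ} (hS : 0 < S) {μ : ℝ} (hKS : (d : ℝ) * μ ^ 2 ≤ 1) {v : ℝ} (hv0 : 0 ≤ v) {X : ℕ}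
    (h : v ≤ (X : ℝ) / S) : μ ^ 2 * v ≤ ((X / d + 1 : ℕ) : ℝ) / S := by
  have hd' : (0 : ℝ) < d := by exact_mod_cast hd
  have hS' : (0 : ℝ) < S := by exact_mod_cast hS
  have h1 : μ ^ 2 ≤ 1 / d := by
    rw [le_div_iff₀ hd']
    linarith
  have h2 := nat_div_ge X d hd
  have h3 : μ ^ 2 * v ≤ 1 / d * ((X : ℝ) / S) :=
    mul_le_mul h1 h (by positivity) (by positivity)
  have e : 1 / (d : ℝ) * ((X : ℝ) / S) = ((X : ℝ) / d) / S := by
    field_simp
  rw [e] at h3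
  refine h3.trans ?_
  apply div_le_div_of_nonneg_right _ hS'.le
  push_cast
  exact h2

theorem q_le_of (hd : 0 < d) {S : ℕ} (hS : 0 < S) {μ : ℝ} (hKS : (d : ℝ) * μ ^ 2 ≤ 1) {v : ℝ} (hv0 : 0 ≤ v) {Q : ℕ}
    (h : v ≤ (Q : ℝ) / S) : μ ^ 4 * v ≤ ((Q / (d * d) + 1 : ℕ) : ℝ) / S := by
  have hd' : (0 : ℝ) < d := by exact_mod_cast hd
  have hS' : (0 : ℝ) < S := by exact_mod_cast hS
  have hdd : 0 < d * d := Nat.mul_pos hd hd
  have h1 : μ ^ 2 ≤ 1 / d := by
    rw [le_div_iff₀ hd']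
    linarith
  have h1' : μ ^ 4 ≤ 1 / (d * d : ℝ) := by
    have : μ ^ 4 = μ ^ 2 * μ ^ 2 := by ring
    rw [this]
    have h5 : (1 : ℝ) / (d * d) = 1 / d * (1 / d) := by field_simp
    rw [h5]
    exact mul_le_mul h1 h1 (by positivity) (by positivity)
  have h2 := nat_div_ge Q (d * d) hdd
  have h3 : μ ^ 4 * v ≤ 1 / (d * d : ℝ) * ((Q : ℝ) / S) :=
    mul_le_mul h1' h (by positivity) (by positivity)
  have e : 1 / (d * d : ℝ) * ((Q : ℝ) / S) = ((Q : ℝ) / ((d * d : ℕ) : ℝ)) / S := by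
    push_cast
    field_simp
  rw [e] at h3
  refine h3.trans ?_
  apply div_le_div_of_nonneg_right _ hS'.le
  push_cast at h2 ⊢
  exact h2

/-- The chi-square recursion from a good set of constants. -/
theorem r_X_good (c : XC) (hG : c.Good μ) (hμ : 0 < μ) {ι : Type*} [Fintype ι] {l : ι → Fin 3 → ℝ} (hs : IsSig l)
    (hc : Capped μ l) (k : ℕ) :
    3 * xx (powS (k + 1) l) ≤ recX c (3 * xx (powS k l)) (3 * xx l) (BB (powS k l)) (QQ (powS k l)) (QQ l) := by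
  obtain ⟨hd, μ', hle, hC⟩ := hG
  have hN : ∀ t, 0 ≤ l t 0 + l t 1 + l t 2 := fun t => by
    have h0 := hs.pos t 0
    have h1 := hs.pos t 1
    have h2 := hs.pos t 2
    positivity
  exact r_X c (hμ.trans_le hle) hd hC hs (hc.mono hle hN) k

/-- The fourth-moment recursion from a good set of constants. -/
theorem r_Q_good (c : QC) (hG : c.Good μ) {ι : Type*} [Fintype ι] {l : ι → Fin 3 → ℝ} (hs : IsSig l)
    (hc : StrictCap ((c.mn : ℝ) / c.md) l) (k : ℕ) :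
    QQ (powS (k + 1) l) ≤ recQ c (3 * xx (powS k l)) (3 * xx l) (QQ (powS k l)) (QQ l) := by
  obtain ⟨hd, h1, h2, h3, -, Kb, rad, hC⟩ := hG
  exact r_Q c h1 h2 hd h3 hC hs hc k

/-- One level. -/
theorem lvl_sound (hV : Valid P μ μ₃) {S : ℕ} (hS : 0 < S) (hd : 0 < d) (hKS : (d : ℝ) * μ ^ 2 ≤ 1)
    (n X Q X' Q' : ℕ) (h1 : 3 * xx (lev d (-μ) n) ≤ (X : ℝ) / S) (h2 : QQ (lev d (-μ) n) ≤ (Q : ℝ) / S)
    (h : lvl P S d X Q = some (X', Q')) :
    3 * xx (lev d (-μ) (n + 1)) ≤ (X' : ℝ) / S ∧ QQ (lev d (-μ) (n + 1)) ≤ (Q' : ℝ) / S := by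
  have hS' : (0 : ℝ) < S := by exact_mod_cast hS
  have hl1 : -(1 / 2) < -μ := by linarith [hV.lt]
  have hl2 : -μ < 1 := by linarith [hV.pos]
  have hW := lev_wsig' (d := d) hl1 hl2 n
  have hμ3 : 0 < μ₃ := hV.pos.trans_le hV.le₃
  obtain ⟨hs, hc1, hc3, hcq⟩ := chan_facts (d := d) hV n
  set l₀ := chan (-μ) (lev d (-μ) n) with hl₀
  have hx := xx_chan hW (-μ)
  have hq := QQ_chan hW (-μ)
  rw [← hl₀] at hx hq
  have hμsq : (-μ) ^ 2 = μ ^ 2 := by ring
  have hμ4 : (-μ) ^ 4 = μ ^ 4 := by ring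
  rw [hμsq] at hx
  rw [hμ4] at hq
  have hX0 : 0 ≤ 3 * xx (lev d (-μ) n) := by
    have := xx_nonneg hW
    linarith
  have hQ0 : 0 ≤ QQ (lev d (-μ) n) := QQ_nonneg hW
  set y := 3 * xx l₀ with hy
  set q' := QQ l₀ with hq'
  have hye : y = μ ^ 2 * (3 * xx (lev d (-μ) n)) := by rw [hy, hx]; ring
  have hqe : q' = μ ^ 4 * QQ (lev d (-μ) n) := hq
  have hy0 : 0 ≤ y := by rw [hye]; positivity
  have hq0 : 0 ≤ q' := by rw [hqe]; positivity
  have hyb := x_le_of hd hS hKS hX0 h1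
  have hqb := q_le_of hd hS hKS hQ0 h2
  rw [← hye] at hyb
  rw [← hqe] at hqb
  -- unfold the level
  unfold lvl at h
  simp only [force_eq] at h
  split_ifs at h with hcond
  obtain ⟨hbS, hok0, hokl⟩ := hcond
  set x := X / d + 1 with hxd
  set q := Q / (d * d) + 1 with hqd
  set b := min (((P.b.den + P.b.en) * x + P.b.dn * q) / P.b.den + 1) (P.b.rn * x / P.b.rd + 1) with hb
  -- the third moment
  have hdb : (0 : ℝ) < P.b.den := by exact_mod_cast hV.db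
  have hdr : (0 : ℝ) < P.b.rd := by exact_mod_cast hV.dr
  have hb1 : BB l₀ ≤ ((((P.b.den + P.b.en) * x + P.b.dn * q) / P.b.den + 1 : ℕ) : ℝ) / S := by
    have h3 := BB_le hμ3 hV.cb hs hc3
    rw [← hy, ← hq'] at h3
    have h4 := nat_div_ge ((P.b.den + P.b.en) * x + P.b.dn * q) P.b.den hV.db
    have h5 : (1 + (P.b.en : ℝ) / P.b.den) * y + (P.b.dn : ℝ) / P.b.den * q'
        ≤ (1 + (P.b.en : ℝ) / P.b.den) * ((x : ℝ) / S) + (P.b.dn : ℝ) / P.b.den * ((q : ℝ) / S) := by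
      have := mul_le_mul_of_nonneg_left hyb (show (0 : ℝ) ≤ 1 + (P.b.en : ℝ) / P.b.den by positivity)
      have := mul_le_mul_of_nonneg_left hqb (show (0 : ℝ) ≤ (P.b.dn : ℝ) / P.b.den by positivity)
      linarith
    refine (h3.trans h5).trans ?_
    have e : (1 + (P.b.en : ℝ) / P.b.den) * ((x : ℝ) / S) + (P.b.dn : ℝ) / P.b.den * ((q : ℝ) / S)
        = ((((P.b.den + P.b.en) * x + P.b.dn * q : ℕ) : ℝ) / (P.b.den : ℝ)) / S := by
      push_cast
      field_simp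
    rw [e]
    apply div_le_div_of_nonneg_right _ hS'.le
    push_cast at h4 ⊢
    exact h4
  have hb2 : BB l₀ ≤ ((P.b.rn * x / P.b.rd + 1 : ℕ) : ℝ) / S := by
    have h3 := BB_chan_neg hW hV.pos.le hV.lt
    rw [← hl₀] at h3
    have h30 : 3 / (1 - μ) * xx l₀ = 1 / (1 - μ) * y := by
      rw [hy]
      ring
    rw [h30] at h3
    have h4 := nat_div_ge (P.b.rn * x) P.b.rd hV.dr
    have h5 : 1 / (1 - μ) * y ≤ (P.b.rn : ℝ) / P.b.rd * ((x : ℝ) / S) :=
      mul_le_mul hV.rho hyb hy0 (by positivity)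
    refine (h3.trans h5).trans ?_
    have e : (P.b.rn : ℝ) / P.b.rd * ((x : ℝ) / S) = (((P.b.rn * x : ℕ) : ℝ) / (P.b.rd : ℝ)) / S := by
      push_cast
      field_simp
    rw [e]
    apply div_le_div_of_nonneg_right _ hS'.le
    push_cast at h4 ⊢
    exact h4
  have hbb : BB l₀ ≤ (b : ℝ) / S := by
    rcases min_choice (((P.b.den + P.b.en) * x + P.b.dn * q) / P.b.den + 1) (P.b.rn * x / P.b.rd + 1) with e | e
    · rw [hb, e]; exact hb1
    · rw [hb, e]; exact hb2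
  have hb1' : (b : ℝ) / S ≤ 1 := by
    rw [div_le_one hS']
    exact_mod_cast hbS
  -- the powers
  have hok : ∀ c ∈ P.c0 :: P.cs, okC c S x = true := by
    intro c hc
    rcases List.mem_cons.1 hc with rfl | hc'
    · exact hok0
    · exact List.all_eq_true.1 hokl c hc'
  have key := inner_sound P S x q b hS (fun c hc => (hV.cx c hc).1) hok (fun c hc => (hV.qx c hc).1)
    (M := fun k => 3 * xx (powS k l₀))
    (R := fun k => QQ (powS k l₀)) (N := fun k => BB (powS k l₀)) (y := y) (q' := q') (b' := BB l₀)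
    (fun k => by
      have := xx_nonneg (powS_isSig hs k).toW
      linarith)
    (fun k => QQ_nonneg (powS_isSig hs k).toW)
    (fun k => BB_le_one (powS_isSig hs k).toW)
    hb1'
    (fun c hc k => r_X_good c (hV.cx c hc) hV.pos hs hc1 k)
    (fun c hc k => r_Q_good c (hV.qx c hc) hs (hcq c hc) k)
    (fun k => N_rec_neg hs k)
    hy0 hyb hq0 hqb hbb d 0 0 0 0 (by
      have := xx_powS_zero_le l₀
      simp only [Nat.cast_zero, zero_div]
      linarith) (by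
      simp only [Nat.cast_zero, zero_div]
      exact (QQ_powS_zero l₀).le) (by
      simp only [Nat.cast_zero, zero_div]
      exact BB_powS_zero_le l₀)
  rw [Nat.zero_add] at key
  obtain ⟨k1, k2⟩ := key
  simp only [Option.some.injEq, Prod.mk.injEq] at h
  obtain ⟨rfl, rfl⟩ := h
  rw [lev_succ, ← hl₀]
  refine ⟨k1, ?_⟩
  rcases min_choice (inner P S x q b d 0 0 0).2 (2 * (inner P S x q b d 0 0 0).1) with e | e
  · rw [e]; exact k2
  · rw [e]
    have h8 : QQ (powS d l₀) ≤ 2 * (((inner P S x q b d 0 0 0).1 : ℝ) / S) := by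
      have h7 := QQ_le_two (powS_isSig hs d).toW
      linarith
    have e' : ((2 * (inner P S x q b d 0 0 0).1 : ℕ) : ℝ) / S = 2 * (((inner P S x q b d 0 0 0).1 : ℝ) / S) := by
      push_cast
      ring
    rw [e']
    exact h8

/-- Many levels. -/
theorem chain_sound (hV : Valid P μ μ₃) {S : ℕ} (hS : 0 < S) (hd : 0 < d) (hKS : (d : ℝ) * μ ^ 2 ≤ 1) :
    ∀ (N n X Q X' Q' : ℕ), 3 * xx (lev d (-μ) n) ≤ (X : ℝ) / S → QQ (lev d (-μ) n) ≤ (Q : ℝ) / S →
      chainN P S d N X Q = some (X', Q') →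
      3 * xx (lev d (-μ) (n + N)) ≤ (X' : ℝ) / S ∧ QQ (lev d (-μ) (n + N)) ≤ (Q' : ℝ) / S := by
  intro N
  induction N with
  | zero =>
    intro n X Q X' Q' h1 h2 h
    simp only [chainN, Option.some.injEq, Prod.mk.injEq] at h
    obtain ⟨rfl, rfl⟩ := h
    exact ⟨h1, h2⟩
  | succ N ih =>
    intro n X Q X' Q' h1 h2 h
    simp only [chainN] at h
    cases hl : lvl P S d X Q with
    | none =>
      rw [hl] at h
      simp at h
    | some v =>
      obtain ⟨X'', Q''⟩ := v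
      rw [hl] at h
      simp only [force_eq] at h
      obtain ⟨k1, k2⟩ := lvl_sound hV hS hd hKS n X Q X'' Q'' h1 h2 hl
      have := ih (n + 1) X'' Q'' X' Q' k1 k2 h
      rwa [show n + 1 + N = n + (N + 1) by ring] at this

/-- Start of the chain. -/
theorem level_zero_bd (hV : Valid P μ μ₃) {S : ℕ} (hS : 0 < S) :
    3 * xx (lev d (-μ) 0) ≤ ((2 * S : ℕ) : ℝ) / S ∧ QQ (lev d (-μ) 0) ≤ ((4 * S : ℕ) : ℝ) / S := by
  have hS' : (0 : ℝ) < S := by exact_mod_cast hS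
  have hl1 : -(1 / 2) < -μ := by linarith [hV.lt]
  have hl2 : -μ < 1 := by linarith [hV.pos]
  have hW := lev_wsig' (d := d) hl1 hl2 0
  have e := xx_lev_zero d (-μ)
  have e1 : ((2 * S : ℕ) : ℝ) / S = 2 := by
    push_cast
    field_simp
  have e2 : ((4 * S : ℕ) : ℝ) / S = 4 := by
    push_cast
    field_simp
  rw [e1, e2, e]
  constructor
  · norm_num
  · have := QQ_le_two hW
    rw [e] at this
    linarith

/-- The chain from the root. -/
theorem chain_root (hV : Valid P μ μ₃) {S : ℕ} (hS : 0 < S) (hd : 0 < d) (hKS : (d : ℝ) * μ ^ 2 ≤ 1)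
    {N Xf Qf : ℕ} (h : chainOK P S d N (2 * S) (4 * S) Xf Qf = true) :
    3 * xx (lev d (-μ) N) ≤ (Xf : ℝ) / S ∧ QQ (lev d (-μ) N) ≤ (Qf : ℝ) / S := by
  have hS' : (0 : ℝ) < S := by exact_mod_cast hS
  unfold chainOK at h
  cases hc : chainN P S d N (2 * S) (4 * S) with
  | none =>
    rw [hc] at h
    simp at h
  | some v =>
    obtain ⟨X', Q'⟩ := v
    rw [hc] at h
    simp only [Bool.and_eq_true, Nat.ble_eq] at h
    obtain ⟨k1, k2⟩ := level_zero_bd (d := d) hV hS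
    have key := chain_sound hV hS hd hKS N 0 (2 * S) (4 * S) X' Q' k1 k2 hc
    rw [zero_add] at key
    have h1 : (X' : ℝ) ≤ Xf := by exact_mod_cast h.1
    have h2 : (Q' : ℝ) ≤ Qf := by exact_mod_cast h.2
    exact ⟨key.1.trans (div_le_div_of_nonneg_right h1 hS'.le), key.2.trans (div_le_div_of_nonneg_right h2 hS'.le)⟩

end level

end Vale.Agent.Lib.P154.Cl
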