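import Vale.Agent.Lib.P154_cl98.Inst16
import Vale.Agent.Lib.P154.NegMain

/-!
The exact threshold on the `d`-ary tree for `d ≥ 16`, negative eigenvalue.
-/

noncomputable section

open Filter Topology

namespace Vale.Agent.Lib.P154.Cl

open Vale.Agent.Lib.P154
open Vale.Agent.Lib.Common.Kron

theorem chain_16 : chainOK P16 (2 ^ 40) 16 266 (2 * 2 ^ 40) (4 * 2 ^ 40) 109951162777 32985348833 = true := by
  decide +kernel

theorem chain_17 : chainOK P16 (2 ^ 40) 17 235 (2 * 2 ^ 40) (4 * 2 ^ 40) 109951162777 32985348833 = true := by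
  decide +kernel

theorem chain_18 : chainOK P16 (2 ^ 40) 18 211 (2 * 2 ^ 40) (4 * 2 ^ 40) 109951162777 32985348833 = true := by
  decide +kernel

theorem chain_19 : chainOK P16 (2 ^ 40) 19 195 (2 * 2 ^ 40) (4 * 2 ^ 40) 109951162777 32985348833 = true := by
  decide +kernel

theorem chain_20 : chainOK P16 (2 ^ 40) 20 182 (2 * 2 ^ 40) (4 * 2 ^ 40) 109951162777 32985348833 = true := by
  decide +kernel

theorem chain_21 : chainOK P16 (2 ^ 40) 21 172 (2 * 2 ^ 40) (4 * 2 ^ 40) 109951162777 32985348833 = true := by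
  decide +kernel

theorem chain_22 : chainOK P16 (2 ^ 40) 22 164 (2 * 2 ^ 40) (4 * 2 ^ 40) 109951162777 32985348833 = true := by
  decide +kernel

theorem chain_23 : chainOK P16 (2 ^ 40) 23 158 (2 * 2 ^ 40) (4 * 2 ^ 40) 109951162777 32985348833 = true := by
  decide +kernel

theorem chain_24 : chainOK P16 (2 ^ 40) 24 152 (2 * 2 ^ 40) (4 * 2 ^ 40) 109951162777 32985348833 = true := by
  decide +kernel

theorem chain_25 : chainOK P16 (2 ^ 40) 25 148 (2 * 2 ^ 40) (4 * 2 ^ 40) 109951162777 32985348833 = true := by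
  decide +kernel

theorem chain_26 : chainOK P16 (2 ^ 40) 26 144 (2 * 2 ^ 40) (4 * 2 ^ 40) 109951162777 32985348833 = true := by
  decide +kernel

theorem chain_27 : chainOK P16 (2 ^ 40) 27 140 (2 * 2 ^ 40) (4 * 2 ^ 40) 109951162777 32985348833 = true := by
  decide +kernel

theorem chain_28 : chainOK P16 (2 ^ 40) 28 137 (2 * 2 ^ 40) (4 * 2 ^ 40) 109951162777 32985348833 = true := by
  decide +kernel

theorem chain_29 : chainOK P16 (2 ^ 40) 29 134 (2 * 2 ^ 40) (4 * 2 ^ 40) 109951162777 32985348833 = true := by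
  decide +kernel

theorem chain_30 : chainOK P16 (2 ^ 40) 30 132 (2 * 2 ^ 40) (4 * 2 ^ 40) 109951162777 32985348833 = true := by
  decide +kernel

/-- The threshold for `16 ≤ d ≤ 30`. -/
theorem reg_16_30 {d : ℕ} (h1 : 16 ≤ d) (h2 : d ≤ 30) {μ : ℝ} (h0 : 0 < μ) (hKS : (d : ℝ) * μ ^ 2 ≤ 1) :
    Tendsto (advantage d 3 (-μ)) atTop (𝓝 0) := by
  interval_cases d
  · exact adv_16 (by norm_num) chain_16 (by norm_num) (by norm_num) h0 hKS
  · exact adv_16 (by norm_num) chain_17 (by norm_num) (by norm_num) h0 hKS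
  · exact adv_16 (by norm_num) chain_18 (by norm_num) (by norm_num) h0 hKS
  · exact adv_16 (by norm_num) chain_19 (by norm_num) (by norm_num) h0 hKS
  · exact adv_16 (by norm_num) chain_20 (by norm_num) (by norm_num) h0 hKS
  · exact adv_16 (by norm_num) chain_21 (by norm_num) (by norm_num) h0 hKS
  · exact adv_16 (by norm_num) chain_22 (by norm_num) (by norm_num) h0 hKS
  · exact adv_16 (by norm_num) chain_23 (by norm_num) (by norm_num) h0 hKS
  · exact adv_16 (by norm_num) chain_24 (by norm_num) (by norm_num) h0 hKS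
  · exact adv_16 (by norm_num) chain_25 (by norm_num) (by norm_num) h0 hKS
  · exact adv_16 (by norm_num) chain_26 (by norm_num) (by norm_num) h0 hKS
  · exact adv_16 (by norm_num) chain_27 (by norm_num) (by norm_num) h0 hKS
  · exact adv_16 (by norm_num) chain_28 (by norm_num) (by norm_num) h0 hKS
  · exact adv_16 (by norm_num) chain_29 (by norm_num) (by norm_num) h0 hKS
  · exact adv_16 (by norm_num) chain_30 (by norm_num) (by norm_num) h0 hKS

/-- Main theorem on the `d`-ary tree for `λ < 0`. -/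
theorem reg_main16 (d : ℕ) (hd : 2 ≤ d) (lam : ℝ) (h0 : -(1 / 2) ≤ lam) (h1 : lam < 0)
    (hc : d ≤ 3 ∨ (d : ℝ) * lam ^ 2 ≤ 1 - 3 / (d : ℝ) ^ 2 ∨ (16 ≤ d ∧ (d : ℝ) * lam ^ 2 ≤ 1)) :
    Tendsto (advantage d 3 lam) atTop (𝓝 0) := by
  by_cases h31 : 31 ≤ d
  · refine reg_main d hd lam h0 h1 ?_
    rcases hc with hc | hc | hc
    · exact Or.inl hc
    · exact Or.inr (Or.inl hc)
    · exact Or.inr (Or.inr ⟨h31, hc.2⟩)
  · rcases hc with hc | hc | hc
    · exact reg_main d hd lam h0 h1 (Or.inl hc)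
    · exact reg_main d hd lam h0 h1 (Or.inr (Or.inl hc))
    · obtain ⟨μ, rfl⟩ : ∃ μ, lam = -μ := ⟨-lam, by ring⟩
      have hsq : (-μ) ^ 2 = μ ^ 2 := by ring
      have hc2 := hc.2
      rw [hsq] at hc2
      exact reg_16_30 hc.1 (by omega) (by linarith) hc2

end Vale.Agent.Lib.P154.Cl
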