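import Vale.Agent.Lib.P154_cl98.PolyQ

/-!
The pointwise bound for the fourth-moment functional, from the coefficient check.
-/

noncomputable section

open Finset

namespace Vale.Agent.Lib.P154.Cl

open Vale.Agent.Lib.P154
open Vale.Agent.Lib.Common.Kron

theorem gQ_div (x y z D : ℝ) (hD : 0 < D) (hn : 0 < x + y + z) :
    gQ (x / D) (y / D) (z / D) = (3 * (x ^ 2 + y ^ 2 + z ^ 2) - (x + y + z) ^ 2) ^ 2 / (3 * D * (x + y + z) ^ 3) := by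
  have e1 : x / D = D⁻¹ * x := by field_simp
  have e2 : y / D = D⁻¹ * y := by field_simp
  have e3 : z / D = D⁻¹ * z := by field_simp
  rw [e1, e2, e3, gQ_smul _ _ _ _ (inv_ne_zero hD.ne')]
  unfold gQ fN F3
  field_simp

/-- Consequence of the coefficient check in the abstract variables. -/
theorem coreFull_imp (md den g c3 c4 mb h a k a' n1 n2 n3 n4 n5 n6 e1 e2 e3 e4 e5 e6 : ℝ) (hmd : 0 < md) (hden : 0 < den)
    (hh : 0 < h) (hk : 0 < k) (h1 : 0 < n1) (h2 : 0 < n2) (h3 : 0 < n3) (h4 : 0 < n4) (h5 : 0 < n5) (h6 : 0 < n6)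
    (hF : 0 ≤ coreFull md den g c3 c4 mb h a k a' n1 n2 n3 n4 n5 n6 e1 e2 e3 e4 e5 e6) :
    e1 ^ 2 / n1 ^ 3 + e2 ^ 2 / n2 ^ 3 + e3 ^ 2 / n3 ^ 3 + e4 ^ 2 / n4 ^ 3 + e5 ^ 2 / n5 ^ 3 + e6 ^ 2 / n6 ^ 3
      ≤ 18 * md * h * k * ((2 * a / h ^ 2) ^ 2 + (mb * a' / (md ^ 2 * k ^ 2)) ^ 2
        + g / den * ((2 * a / h ^ 2) * (mb * a' / (md ^ 2 * k ^ 2)))
        + c3 / den * ((2 * a / h ^ 2) ^ 2 * (mb * a' / (md ^ 2 * k ^ 2)))
        + c4 / den * ((2 * a / h ^ 2) * (mb * a' / (md ^ 2 * k ^ 2)) ^ 2)) := by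
  set kk := md ^ 2 * k ^ 2 with hkk
  have hkk0 : 0 < kk := by positivity
  set G := n1 ^ 3 * (n2 ^ 3 * (n3 ^ 3 * (n4 ^ 3 * (n5 ^ 3 * n6 ^ 3)))) with hG
  have hG0 : 0 < G := by positivity
  set S := e1 ^ 2 * (n2 ^ 3 * (n3 ^ 3 * (n4 ^ 3 * (n5 ^ 3 * n6 ^ 3))))
        + e2 ^ 2 * (n1 ^ 3 * (n3 ^ 3 * (n4 ^ 3 * (n5 ^ 3 * n6 ^ 3))))
        + e3 ^ 2 * (n1 ^ 3 * (n2 ^ 3 * (n4 ^ 3 * (n5 ^ 3 * n6 ^ 3))))
        + e4 ^ 2 * (n1 ^ 3 * (n2 ^ 3 * (n3 ^ 3 * (n5 ^ 3 * n6 ^ 3))))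
        + e5 ^ 2 * (n1 ^ 3 * (n2 ^ 3 * (n3 ^ 3 * (n4 ^ 3 * n6 ^ 3))))
        + e6 ^ 2 * (n1 ^ 3 * (n2 ^ 3 * (n3 ^ 3 * (n4 ^ 3 * n5 ^ 3)))) with hS
  have eL : e1 ^ 2 / n1 ^ 3 + e2 ^ 2 / n2 ^ 3 + e3 ^ 2 / n3 ^ 3 + e4 ^ 2 / n4 ^ 3 + e5 ^ 2 / n5 ^ 3 + e6 ^ 2 / n6 ^ 3
      = S / G := by
    rw [hS, hG]
    field_simp
  set R4 := den * ((2 * a) ^ 2 * kk ^ 2 + (mb * a') ^ 2 * h ^ 4) + g * ((2 * a) * (mb * a') * (h ^ 2 * kk))
      + c3 * ((2 * a) ^ 2 * (mb * a') * kk) + c4 * ((2 * a) * (mb * a') ^ 2 * h ^ 2) with hR4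
  have eR : 18 * md * h * k * ((2 * a / h ^ 2) ^ 2 + (mb * a' / kk) ^ 2
        + g / den * ((2 * a / h ^ 2) * (mb * a' / kk))
        + c3 / den * ((2 * a / h ^ 2) ^ 2 * (mb * a' / kk))
        + c4 / den * ((2 * a / h ^ 2) * (mb * a' / kk) ^ 2))
      = 18 * md * h * k * R4 / (den * h ^ 4 * kk ^ 2) := by
    rw [hR4]
    field_simp
  rw [eL, eR, div_le_div_iff₀ hG0 (by positivity)]
  have e : coreFull md den g c3 c4 mb h a k a' n1 n2 n3 n4 n5 n6 e1 e2 e3 e4 e5 e6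
      = 18 * md * h * k * R4 * G - S * (den * h ^ 4 * kk ^ 2) := by
    unfold coreFull
    rw [hR4, hG, hS, hkk]
    ring
  rw [e] at hF
  linarith

theorem A3_param (u v : ℝ) (hK : rK u v ≠ 0) :
    A3 (rP0 u v / (3 * rK u v)) (rP1 u / (3 * rK u v)) (1 / (3 * rK u v)) = rA u v / rK u v ^ 2 := by
  unfold A3
  have e : rP0 u v * rP1 u + rP1 u + rP0 u v = 3 * (rK u v ^ 2 - rA u v) := by
    unfold rP0 rP1 rK rA
    ring
  field_simp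
  linear_combination (-1) * e

theorem A3_paramQ (mn md u v : ℝ) (hK : rK u v ≠ 0) (hmd : md ≠ 0) :
    A3 (rQ mn md (rK u v) (rP0 u v) / (3 * md * rK u v)) (rQ mn md (rK u v) (rP1 u) / (3 * md * rK u v))
        (rQ mn md (rK u v) 1 / (3 * md * rK u v)) = (mn / md) ^ 2 * (rA u v / rK u v ^ 2) := by
  unfold A3 rQ
  have e : rP0 u v * rP1 u + rP1 u + rP0 u v = 3 * (rK u v ^ 2 - rA u v) := by
    unfold rP0 rP1 rK rA
    ring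
  have e2 : rP0 u v + rP1 u + 1 = 3 * rK u v := by
    unfold rP0 rP1 rK
    ring
  field_simp
  have e3 : rP0 u v = 3 * rK u v - rP1 u - 1 := by linarith
  rw [e3] at e ⊢
  linear_combination (-mn ^ 2) * e

theorem sum_param (u v : ℝ) (hK : rK u v ≠ 0) :
    rP0 u v / (3 * rK u v) + rP1 u / (3 * rK u v) + 1 / (3 * rK u v) = 1 := by
  have e2 : rP0 u v + rP1 u + 1 = 3 * rK u v := by
    unfold rP0 rP1 rK
    ring
  field_simp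
  linarith

theorem sum_paramQ (mn md u v : ℝ) (hK : rK u v ≠ 0) (hmd : md ≠ 0) :
    rQ mn md (rK u v) (rP0 u v) / (3 * md * rK u v) + rQ mn md (rK u v) (rP1 u) / (3 * md * rK u v)
        + rQ mn md (rK u v) 1 / (3 * md * rK u v) = 1 := by
  have e2 : rP0 u v + rP1 u + 1 = 3 * rK u v := by
    unfold rP0 rP1 rK
    ring
  unfold rQ
  field_simp
  have e3 : rP0 u v = 3 * rK u v - rP1 u - 1 := by linarith
  rw [e3]
  ring

/-- The six-term sum in the parameters, from the coefficient check. -/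
theorem six_gQ_param {mn md den g c3 c4 Kb : ℕ} {rad : List ℕ} (hmd : 0 < md) (hden : 0 < den)
    (hmn : 2 * mn ≤ md) (hc : check (PEQ.ePolyQ mn md den g c3 c4) Kb rad = true) (u v u' v' : ℝ)
    (hu : 0 ≤ u) (hv : 0 ≤ v) (hu' : 0 ≤ u') (hv' : 0 ≤ v') :
    six gQ (rP0 u v / (3 * rK u v)) (rP1 u / (3 * rK u v)) (1 / (3 * rK u v))
      (rQ mn md (rK u' v') (rP0 u' v') / (3 * md * rK u' v')) (rQ mn md (rK u' v') (rP1 u') / (3 * md * rK u' v'))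
      (rQ mn md (rK u' v') 1 / (3 * md * rK u' v'))
    ≤ 2 / 3 * ((2 * (rA u v / rK u v ^ 2)) ^ 2 + (2 * ((mn / md : ℝ) ^ 2 * (rA u' v' / rK u' v' ^ 2))) ^ 2
      + g / den * ((2 * (rA u v / rK u v ^ 2)) * (2 * ((mn / md : ℝ) ^ 2 * (rA u' v' / rK u' v' ^ 2))))
      + c3 / den * ((2 * (rA u v / rK u v ^ 2)) ^ 2 * (2 * ((mn / md : ℝ) ^ 2 * (rA u' v' / rK u' v' ^ 2))))
      + c4 / den * ((2 * (rA u v / rK u v ^ 2)) * (2 * ((mn / md : ℝ) ^ 2 * (rA u' v' / rK u' v' ^ 2))) ^ 2)) := by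
  have hmd' : (0 : ℝ) < md := by exact_mod_cast hmd
  have hden' : (0 : ℝ) < den := by exact_mod_cast hden
  have hmn' : 2 * (mn : ℝ) ≤ md := by exact_mod_cast hmn
  have hmn0 : (0 : ℝ) ≤ mn := by positivity
  have hK : 0 < rK u v := by unfold rK; positivity
  have hK' : 0 < rK u' v' := by unfold rK; positivity
  have hP0 : 0 < rP0 u v := by unfold rP0; positivity
  have hP1 : 0 < rP1 u := by unfold rP1; positivity
  have q0 : 0 < rQ mn md (rK u' v') (rP0 u' v') := by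
    unfold rQ rK rP0
    nlinarith [mul_nonneg hmn0 hu', mul_nonneg hmn0 hv', mul_nonneg hmd'.le hu', mul_nonneg hmd'.le hv',
      mul_nonneg (sub_nonneg.2 hmn') hu', mul_nonneg (sub_nonneg.2 hmn') hv']
  have q1 : 0 < rQ mn md (rK u' v') (rP1 u') := by
    unfold rQ rK rP1
    nlinarith [mul_nonneg hmn0 hu', mul_nonneg hmn0 hv', mul_nonneg hmd'.le hu', mul_nonneg hmd'.le hv',
      mul_nonneg (sub_nonneg.2 hmn') hu', mul_nonneg (sub_nonneg.2 hmn') hv']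
  have q2 : 0 < rQ mn md (rK u' v') 1 := by
    unfold rQ rK
    nlinarith [mul_nonneg hmn0 hu', mul_nonneg hmn0 hv', mul_nonneg hmd'.le hu', mul_nonneg hmd'.le hv',
      mul_nonneg (sub_nonneg.2 hmn') hu', mul_nonneg (sub_nonneg.2 hmn') hv']
  have hcheck := nonneg_of_check hc (ptv u v u' v') (ptv_nonneg hu hv hu' hv')
  rw [evalR_ePolyQ] at hcheck
  set h := rK u v with hh
  set k := rK u' v' with hkk
  set P0 := rP0 u v with hP0e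
  set P1 := rP1 u with hP1e
  set Q0 := rQ mn md k (rP0 u' v') with hQ0
  set Q1 := rQ mn md k (rP1 u') with hQ1
  set Q2 := rQ mn md k 1 with hQ2
  have posN : ∀ x y z : ℝ, 0 < x → 0 < y → 0 < z → 0 < rN P0 P1 1 x y z := by
    intro x y z hx hy hz
    unfold rN
    positivity
  have himp := coreFull_imp _ _ _ _ _ _ _ _ _ _ _ _ _ _ _ _ _ _ _ _ _ _ hmd' hden' hK hK'
    (posN _ _ _ q0 q1 q2) (posN _ _ _ q1 q2 q0) (posN _ _ _ q2 q0 q1) (posN _ _ _ q0 q2 q1)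
    (posN _ _ _ q2 q1 q0) (posN _ _ _ q1 q0 q2) hcheck
  set D := 9 * (md : ℝ) * h * k with hD
  have hD0 : 0 < D := by positivity
  have atom : ∀ x y : ℝ, x / (3 * h) * (y / (3 * md * k)) = (x * y) / D := by
    intro x y
    rw [hD]
    field_simp
    ring
  have termE : ∀ y1 y2 y3 : ℝ, 0 < y1 → 0 < y2 → 0 < y3 →
      gQ (P0 / (3 * h) * (y1 / (3 * md * k))) (P1 / (3 * h) * (y2 / (3 * md * k))) (1 / (3 * h) * (y3 / (3 * md * k)))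
        = rE P0 P1 1 y1 y2 y3 ^ 2 / (3 * D * rN P0 P1 1 y1 y2 y3 ^ 3) := by
    intro y1 y2 y3 h1 h2 h3
    rw [atom, atom, atom, gQ_div _ _ _ _ hD0 (by positivity)]
    rfl
  unfold six
  rw [termE _ _ _ q0 q1 q2, termE _ _ _ q1 q2 q0, termE _ _ _ q2 q0 q1, termE _ _ _ q0 q2 q1,
    termE _ _ _ q2 q1 q0, termE _ _ _ q1 q0 q2]
  have hsum : ∀ e n : ℝ, e ^ 2 / (3 * D * n ^ 3) = (1 / (3 * D)) * (e ^ 2 / n ^ 3) := by
    intro e n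
    by_cases hn : n = 0
    · simp [hn]
    · field_simp
  simp only [hsum]
  have hmb : ((2 * mn ^ 2 : ℕ) : ℝ) * rA u' v' / ((md : ℝ) ^ 2 * k ^ 2) = 2 * ((mn / md : ℝ) ^ 2 * (rA u' v' / k ^ 2)) := by
    push_cast
    field_simp
  rw [hmb] at himp
  have hpos : 0 ≤ 1 / (3 * D) := by positivity
  have := mul_le_mul_of_nonneg_left himp hpos
  have e18 : 1 / (3 * D) * (18 * (md : ℝ) * h * k) = 2 / 3 := by
    rw [hD]
    field_simp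
    ring
  calc _ = 1 / (3 * D) * (rE P0 P1 1 Q0 Q1 Q2 ^ 2 / rN P0 P1 1 Q0 Q1 Q2 ^ 3 + rE P0 P1 1 Q1 Q2 Q0 ^ 2 / rN P0 P1 1 Q1 Q2 Q0 ^ 3
          + rE P0 P1 1 Q2 Q0 Q1 ^ 2 / rN P0 P1 1 Q2 Q0 Q1 ^ 3 + rE P0 P1 1 Q0 Q2 Q1 ^ 2 / rN P0 P1 1 Q0 Q2 Q1 ^ 3
          + rE P0 P1 1 Q2 Q1 Q0 ^ 2 / rN P0 P1 1 Q2 Q1 Q0 ^ 3 + rE P0 P1 1 Q1 Q0 Q2 ^ 2 / rN P0 P1 1 Q1 Q0 Q2 ^ 3) := by
        ring
    _ ≤ _ := this
    _ = _ := by
        rw [← mul_assoc, e18, mul_div_assoc (2 : ℝ) (rA u v) (h ^ 2)]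

end Vale.Agent.Lib.P154.Cl
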