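import Vale.Agent.Lib.P154.NegTree

/-!
The pointwise bound for the chi-square functional with fourth-order correction terms, and the
coefficient check that proves it.
-/

noncomputable section

namespace Vale.Agent.Lib.P154.Cl

open Vale.Agent.Lib.P154
open Vale.Agent.Lib.Common.Kron

/-- The quantity `Z` with corrections, the denominator `1 - A1` cleared. -/
def polyZc (β θ g1 g2 A1 C1 A2 : ℝ) : ℝ :=
  (1 - A1) * (1 - A1 - A2 + β * A1 * A2 - g1 * A1 ^ 2 * A2 - g2 * A1 * A2 ^ 2) - θ * A2 * (2 * A1 - C1)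

/-- The polynomial whose nonnegativity gives the pointwise bound. -/
def polyRc (β θ g1 g2 A1 C1 A2 C2 : ℝ) : ℝ :=
  (1 - A1) * polyJ A1 C1 A2 C2 - polyZc β θ g1 g2 A1 C1 A2 * polyX A1 C1 A2 C2

/-- Nonnegativity of `polyRc` on the product of the chamber and the scaled inverted chamber. -/
def CertC (μ β θ g1 g2 : ℝ) : Prop :=
  ∀ t0 t1 t2 s0 s1 s2 : ℝ, 0 ≤ t0 → 0 ≤ t1 → 0 ≤ t2 → t0 + t1 + t2 = 1 →
    0 ≤ s0 → 0 ≤ s1 → 0 ≤ s2 → s0 + s1 + s2 = 1 →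
    0 ≤ polyRc β θ g1 g2 (achi t1 t2) (cchi t1 t2) (μ ^ 2 * achi s1 s2) (-(μ ^ 3) * cchi s1 s2)

def coreZc (den bn tn g1n g2n h a c k a' : ℝ) : ℝ :=
  (h ^ 2 - a) * (den * (h ^ 4 * k ^ 4 - a * h ^ 2 * k ^ 4 - a' * h ^ 4 * k ^ 2) + bn * (a * a' * h ^ 2 * k ^ 2)
      - g1n * (a ^ 2 * a' * k ^ 2) - g2n * (a * a' ^ 2 * h ^ 2))
    - tn * (a' * k ^ 2) * ((2 * (a * h) - c) * h ^ 3)

def coreRc (den bn tn g1n g2n h a c k a' c' : ℝ) : ℝ :=
  2 * den * ((h ^ 2 - a) * coreJ h a c k a' c' * (h ^ 3 * k ^ 3))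
    - coreZc den bn tn g1n g2n h a c k a' * coreX h a c k a' c'

theorem coreRc_eq (den bn tn g1n g2n h a c k a' c' : ℝ) (hh : h ≠ 0) (hk : k ≠ 0) (hd : den ≠ 0) :
    coreRc den bn tn g1n g2n h a c k a' c'
      = 2 * den * (h ^ 9 * k ^ 7)
        * polyRc (bn / den) (tn / den) (g1n / den) (g2n / den) (a / h ^ 2) (c / h ^ 3) (a' / k ^ 2) (c' / k ^ 3) := by
  unfold coreRc coreZc coreX coreJ polyRc polyZc polyJ polyX
  field_simp
  ring

namespace PE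

open Vale.Agent.Lib.Common.Kron.PE
open Vale.Agent.Lib.P154.PE

def eZc (den bn tn g1n g2n : ℕ) (h a ce k a' : Vale.Agent.Lib.Common.Kron.PE) :
    Vale.Agent.Lib.Common.Kron.PE :=
  sub (mul (sub (pow h 2) a)
      (sub (sub (add (mul (c den) (sub (sub (mul (pow h 4) (pow k 4)) (mul3 a (pow h 2) (pow k 4)))
            (mul3 a' (pow h 4) (pow k 2))))
          (mul (c bn) (mul (mul a a') (mul (pow h 2) (pow k 2)))))
        (mul (c g1n) (mul (mul (pow a 2) a') (pow k 2))))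
        (mul (c g2n) (mul (mul a (pow a' 2)) (pow h 2)))))
    (mul (mul (c tn) (mul a' (pow k 2))) (mul (sub (mul (c 2) (mul a h)) ce) (pow h 3)))

def eRc (den bn tn g1n g2n : ℕ) (h a ce k a' ce' : Vale.Agent.Lib.Common.Kron.PE) :
    Vale.Agent.Lib.Common.Kron.PE :=
  sub (mul (c (2 * den)) (mul (mul (sub (pow h 2) a) (eJ h a ce k a' ce')) (mul (pow h 3) (pow k 3))))
    (mul (eZc den bn tn g1n g2n h a ce k a') (eX h a ce k a' ce'))

end PE

open PE in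
/-- The expression whose coefficients are checked: the variables are `u, v, u', v'`. -/
def ePointC (mn md den bn tn g1n g2n D1 D2 : ℕ) : Vale.Agent.Lib.Common.Kron.PE :=
  let K := Vale.Agent.Lib.Common.Kron.PE.mul (Vale.Agent.Lib.Common.Kron.PE.c md)
    (Vale.Agent.Lib.P154.PE.eH 2 3)
  Vale.Agent.Lib.Common.Kron.PE.mul (Vale.Agent.Lib.Common.Kron.PE.pow (Vale.Agent.Lib.P154.PE.eH 0 1) D1)
    (Vale.Agent.Lib.Common.Kron.PE.mul (Vale.Agent.Lib.Common.Kron.PE.pow K D2)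
      (eRc den bn tn g1n g2n (Vale.Agent.Lib.P154.PE.eH 0 1) (Vale.Agent.Lib.P154.PE.eA 0 1)
        (Vale.Agent.Lib.P154.PE.eC 0 1) K
        (Vale.Agent.Lib.Common.Kron.PE.mul (Vale.Agent.Lib.Common.Kron.PE.c (mn ^ 2))
          (Vale.Agent.Lib.P154.PE.eA 2 3))
        (Vale.Agent.Lib.Common.Kron.PE.neg
          (Vale.Agent.Lib.Common.Kron.PE.mul (Vale.Agent.Lib.Common.Kron.PE.c (mn ^ 3))
            (Vale.Agent.Lib.P154.PE.eC 2 3)))))

theorem evalR_eRc (x : ℕ → ℝ) (den bn tn g1n g2n : ℕ) (h a ce k a' ce' : Vale.Agent.Lib.Common.Kron.PE) :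
    Vale.Agent.Lib.Common.Kron.PE.evalR x (PE.eRc den bn tn g1n g2n h a ce k a' ce')
      = coreRc den bn tn g1n g2n (Vale.Agent.Lib.Common.Kron.PE.evalR x h)
          (Vale.Agent.Lib.Common.Kron.PE.evalR x a)
          (Vale.Agent.Lib.Common.Kron.PE.evalR x ce) (Vale.Agent.Lib.Common.Kron.PE.evalR x k)
          (Vale.Agent.Lib.Common.Kron.PE.evalR x a') (Vale.Agent.Lib.Common.Kron.PE.evalR x ce') := by
  simp only [PE.eRc, PE.eZc, Vale.Agent.Lib.P154.PE.eX, Vale.Agent.Lib.P154.PE.eJ,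
    Vale.Agent.Lib.P154.PE.sub, Vale.Agent.Lib.P154.PE.mul3, Vale.Agent.Lib.Common.Kron.PE.evalR, coreRc, coreZc,
    coreX, coreJ]
  generalize Vale.Agent.Lib.Common.Kron.PE.evalR x h = H
  generalize Vale.Agent.Lib.Common.Kron.PE.evalR x a = A
  generalize Vale.Agent.Lib.Common.Kron.PE.evalR x ce = C
  generalize Vale.Agent.Lib.Common.Kron.PE.evalR x k = K
  generalize Vale.Agent.Lib.Common.Kron.PE.evalR x a' = A'
  generalize Vale.Agent.Lib.Common.Kron.PE.evalR x ce' = C'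
  push_cast
  ring

theorem evalR_ePointC (mn md den bn tn g1n g2n D1 D2 : ℕ) (u v u' v' : ℝ) :
    Vale.Agent.Lib.Common.Kron.PE.evalR (ptv u v u' v') (ePointC mn md den bn tn g1n g2n D1 D2)
      = (1 + 2 * u + v) ^ D1 * (((md : ℝ) * (1 + 2 * u' + v')) ^ D2
        * coreRc den bn tn g1n g2n (1 + 2 * u + v) (u ^ 2 + u * v + v ^ 2)
          ((2 * u + v) * (u + 2 * v) * (v - u)) ((md : ℝ) * (1 + 2 * u' + v'))
          ((mn : ℝ) ^ 2 * (u' ^ 2 + u' * v' + v' ^ 2))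
          (-((mn : ℝ) ^ 3 * ((2 * u' + v') * (u' + 2 * v') * (v' - u'))))) := by
  simp only [ePointC]
  simp only [Vale.Agent.Lib.Common.Kron.PE.evalR, evalR_eRc]
  simp only [Vale.Agent.Lib.P154.PE.eH, Vale.Agent.Lib.P154.PE.eA, Vale.Agent.Lib.P154.PE.eC,
    Vale.Agent.Lib.P154.PE.sub, Vale.Agent.Lib.P154.PE.mul3, Vale.Agent.Lib.Common.Kron.PE.evalR, ptv]
  have e1 : (((1 : ℕ) : ℝ) + ((2 : ℕ) : ℝ) * u + v) = 1 + 2 * u + v := by push_cast; ring
  have e2 : (((1 : ℕ) : ℝ) + ((2 : ℕ) : ℝ) * u' + v') = 1 + 2 * u' + v' := by push_cast; ring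
  have e4 : (((2 : ℕ) : ℝ) * u + v) * ((u + ((2 : ℕ) : ℝ) * v) * (v + -u)) = (2 * u + v) * (u + 2 * v) * (v - u) := by
    push_cast; ring
  have e5 : (((2 : ℕ) : ℝ) * u' + v') * ((u' + ((2 : ℕ) : ℝ) * v') * (v' + -u'))
      = (2 * u' + v') * (u' + 2 * v') * (v' - u') := by
    push_cast; ring
  rw [e1, e2, e4, e5]
  push_cast
  rfl

theorem coreRc_nonneg_of_check {mn md den bn tn g1n g2n D1 D2 k : ℕ} {rad : List ℕ} (hmd : 0 < md)
    (hc : check (ePointC mn md den bn tn g1n g2n D1 D2) k rad = true) (u v u' v' : ℝ)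
    (hu : 0 ≤ u) (hv : 0 ≤ v) (hu' : 0 ≤ u') (hv' : 0 ≤ v') :
    0 ≤ coreRc den bn tn g1n g2n (1 + 2 * u + v) (u ^ 2 + u * v + v ^ 2)
          ((2 * u + v) * (u + 2 * v) * (v - u)) ((md : ℝ) * (1 + 2 * u' + v'))
          ((mn : ℝ) ^ 2 * (u' ^ 2 + u' * v' + v' ^ 2))
          (-((mn : ℝ) ^ 3 * ((2 * u' + v') * (u' + 2 * v') * (v' - u')))) := by
  have h := nonneg_of_check hc (ptv u v u' v') (ptv_nonneg hu hv hu' hv')
  rw [evalR_ePointC] at h
  have hmd' : (0 : ℝ) < md := by exact_mod_cast hmd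
  have h1 : 0 < 1 + 2 * u + v := by positivity
  have h2 : 0 < (md : ℝ) * (1 + 2 * u' + v') := by positivity
  exact nonneg_of_mul_nonneg_right (nonneg_of_mul_nonneg_right h (by positivity)) (by positivity)

/-- The open version of the certificate. -/
theorem polyRc_open_of_check {mn md den bn tn g1n g2n D1 D2 k : ℕ} {rad : List ℕ} (hmd : 0 < md) (hden : 0 < den)
    (hc : check (ePointC mn md den bn tn g1n g2n D1 D2) k rad = true)
    (t0 t1 t2 s0 s1 s2 : ℝ) (h0 : 0 < t0) (h1 : 0 ≤ t1) (h2 : 0 ≤ t2) (hs : t0 + t1 + t2 = 1)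
    (k0 : 0 < s0) (k1 : 0 ≤ s1) (k2 : 0 ≤ s2) (hs' : s0 + s1 + s2 = 1) :
    0 ≤ polyRc ((bn : ℝ) / den) ((tn : ℝ) / den) ((g1n : ℝ) / den) ((g2n : ℝ) / den) (achi t1 t2) (cchi t1 t2)
      (((mn : ℝ) / md) ^ 2 * achi s1 s2) (-(((mn : ℝ) / md) ^ 3) * cchi s1 s2) := by
  have hmd' : (0 : ℝ) < md := by exact_mod_cast hmd
  have hd' : (0 : ℝ) < den := by exact_mod_cast hden
  set u := t1 / (2 * t0) with hu
  set v := t2 / t0 with hv
  set u' := s1 / (2 * s0) with hu'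
  set v' := s2 / s0 with hv'
  have hu0 : 0 ≤ u := by positivity
  have hv0 : 0 ≤ v := by positivity
  have hu'0 : 0 ≤ u' := by positivity
  have hv'0 : 0 ≤ v' := by positivity
  have hC := coreRc_nonneg_of_check hmd hc u v u' v' hu0 hv0 hu'0 hv'0
  have hh : 0 < 1 + 2 * u + v := by positivity
  have hk : 0 < (md : ℝ) * (1 + 2 * u' + v') := by positivity
  rw [coreRc_eq _ _ _ _ _ _ _ _ _ _ _ hh.ne' hk.ne' hd'.ne'] at hC
  have hA1 := achi_scale t0 t1 t2 h0 hs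
  have hC1 := cchi_scale t0 t1 t2 h0 hs
  have hA2 := achi_scale s0 s1 s2 k0 hs'
  have hC2 := cchi_scale s0 s1 s2 k0 hs'
  rw [← hu, ← hv] at hA1 hC1
  rw [← hu', ← hv'] at hA2 hC2
  have e2 : ((mn : ℝ) ^ 2 * (u' ^ 2 + u' * v' + v' ^ 2)) / ((md : ℝ) * (1 + 2 * u' + v')) ^ 2
      = ((mn : ℝ) / md) ^ 2 * achi s1 s2 := by
    rw [← hA2]
    field_simp
  have e3 : (-((mn : ℝ) ^ 3 * ((2 * u' + v') * (u' + 2 * v') * (v' - u')))) / ((md : ℝ) * (1 + 2 * u' + v')) ^ 3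
      = -(((mn : ℝ) / md) ^ 3) * cchi s1 s2 := by
    rw [← hC2]
    field_simp
  rw [hA1, hC1, e2, e3] at hC
  exact nonneg_of_mul_nonneg_right hC (by positivity)

/-- The certificate on the closed simplex, by continuity. -/
theorem certC_of_check {mn md den bn tn g1n g2n D1 D2 k : ℕ} {rad : List ℕ} (hmd : 0 < md) (hden : 0 < den)
    (hc : check (ePointC mn md den bn tn g1n g2n D1 D2) k rad = true) :
    CertC ((mn : ℝ) / md) ((bn : ℝ) / den) ((tn : ℝ) / den) ((g1n : ℝ) / den) ((g2n : ℝ) / den) := by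
  intro t0 t1 t2 s0 s1 s2 h0 h1 h2 hs k0 k1 k2 hs'
  set μ := (mn : ℝ) / md
  set β := (bn : ℝ) / den
  set θ := (tn : ℝ) / den
  set g1 := (g1n : ℝ) / den
  set g2 := (g2n : ℝ) / den
  let g : ℝ → ℝ := fun τ => polyRc β θ g1 g2 (achi (τ * t1) (τ * t2)) (cchi (τ * t1) (τ * t2))
    (μ ^ 2 * achi (τ * s1) (τ * s2)) (-(μ ^ 3) * cchi (τ * s1) (τ * s2))
  have hcont : Continuous g := by
    simp only [g, polyRc, polyZc, polyJ, polyX, achi, cchi]
    fun_prop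
  have hg : ∀ τ : ℝ, 0 < τ → τ < 1 → 0 ≤ g τ := by
    intro τ hτ hτ1
    have h01 : 0 < 1 - τ * t1 - τ * t2 := by
      have : τ * (t1 + t2) ≤ τ * 1 := mul_le_mul_of_nonneg_left (by linarith) hτ.le
      nlinarith
    have h02 : 0 < 1 - τ * s1 - τ * s2 := by
      have : τ * (s1 + s2) ≤ τ * 1 := mul_le_mul_of_nonneg_left (by linarith) hτ.le
      nlinarith
    exact polyRc_open_of_check hmd hden hc _ _ _ _ _ _ h01 (by positivity) (by positivity) (by ring) h02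
      (by positivity) (by positivity) (by ring)
  have hlim : Filter.Tendsto g (nhdsWithin 1 (Set.Iio 1)) (nhds (g 1)) :=
    (hcont.tendsto 1).mono_left nhdsWithin_le_nhds
  have hev : ∀ᶠ τ in nhdsWithin (1 : ℝ) (Set.Iio 1), 0 ≤ g τ := by
    have : Set.Ioo (0 : ℝ) 1 ∈ nhdsWithin (1 : ℝ) (Set.Iio 1) := Ioo_mem_nhdsLT (by norm_num)
    filter_upwards [this] with τ hτ
    exact hg τ hτ.1 hτ.2
  have := ge_of_tendsto hlim hev
  simpa only [g, one_mul] using this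

end Vale.Agent.Lib.P154.Cl
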