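import Vale.Agent.Lib.P154_cl98.SigA

/-!
The pointwise bound for the fourth-moment functional: the polynomial and its coefficient check.
-/

noncomputable section

namespace Vale.Agent.Lib.P154.Cl

open Vale.Agent.Lib.P154
open Vale.Agent.Lib.Common.Kron

namespace PEQ

open Vale.Agent.Lib.Common.Kron.PE

/-- Abbreviation. -/
abbrev E := Vale.Agent.Lib.Common.Kron.PE

/-- Difference. -/
def sub (a b : E) : E := add a (neg b)

/-- `1 + 3 u + 3 v`, `1 + 3 u`, `1`. -/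
def eP0 (i j : ℕ) : E := add (add (c 1) (mul (c 3) (v i))) (mul (c 3) (v j))
def eP1 (i : ℕ) : E := add (c 1) (mul (c 3) (v i))
def eP2 : E := c 1

/-- `1 + 2 u + v`. -/
def eK (i j : ℕ) : E := add (add (c 1) (mul (c 2) (v i))) (v j)

/-- The capped coordinates. -/
def eQ (mn md : ℕ) (K P : E) : E := sub (mul (c (md + mn)) K) (mul (c mn) P)

/-- The linear form `n`. -/
def eN (x1 x2 x3 y1 y2 y3 : E) : E := add (add (mul x1 y1) (mul x2 y2)) (mul x3 y3)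

/-- The form `e = 3 y - n²`. -/
def eE (x1 x2 x3 y1 y2 y3 : E) : E :=
  sub (mul (c 3) (add (add (pow (mul x1 y1) 2) (pow (mul x2 y2) 2)) (pow (mul x3 y3) 2)))
    (pow (eN x1 x2 x3 y1 y2 y3) 2)

/-- Product of cubes. -/
def cub (a : E) : E := pow a 3

/-- The polynomial: `18 md h k G R4 - den h⁴ kk² S`. -/
def eFull (md den g c3 c4 mb : ℕ) (h a k a' n1 n2 n3 n4 n5 n6 e1 e2 e3 e4 e5 e6 : E) : E :=
  let G := mul (cub n1) (mul (cub n2) (mul (cub n3) (mul (cub n4) (mul (cub n5) (cub n6)))))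
  let S := add (add (add (add (add
      (mul (pow e1 2) (mul (cub n2) (mul (cub n3) (mul (cub n4) (mul (cub n5) (cub n6))))))
      (mul (pow e2 2) (mul (cub n1) (mul (cub n3) (mul (cub n4) (mul (cub n5) (cub n6)))))))
      (mul (pow e3 2) (mul (cub n1) (mul (cub n2) (mul (cub n4) (mul (cub n5) (cub n6)))))))
      (mul (pow e4 2) (mul (cub n1) (mul (cub n2) (mul (cub n3) (mul (cub n5) (cub n6)))))))
      (mul (pow e5 2) (mul (cub n1) (mul (cub n2) (mul (cub n3) (mul (cub n4) (cub n6)))))))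
      (mul (pow e6 2) (mul (cub n1) (mul (cub n2) (mul (cub n3) (mul (cub n4) (cub n5))))))
  let sa := mul (c 2) a
  let b := mul (c mb) a'
  let kk := mul (c (md ^ 2)) (pow k 2)
  let R4 := add (add (add (mul (c den) (add (mul (pow sa 2) (pow kk 2)) (mul (pow b 2) (pow h 4))))
      (mul (c g) (mul (mul sa b) (mul (pow h 2) kk))))
      (mul (c c3) (mul (mul (pow sa 2) b) kk)))
      (mul (c c4) (mul (mul sa (pow b 2)) (pow h 2)))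
  sub (mul (c (18 * md)) (mul (mul (mul h k) G) R4))
    (mul (c den) (mul (mul (pow h 4) (pow kk 2)) S))

/-- The expression to check, variables `u, v, u', v'`. -/
def ePolyQ (mn md den g c3 c4 : ℕ) : E :=
  let h := eK 0 1
  let k := eK 2 3
  let a := add (add (pow (v 0) 2) (mul (v 0) (v 1))) (pow (v 1) 2)
  let a' := add (add (pow (v 2) 2) (mul (v 2) (v 3))) (pow (v 3) 2)
  let P0 := eP0 0 1
  let P1 := eP1 0
  let P2 := eP2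
  let Q0 := eQ mn md k (eP0 2 3)
  let Q1 := eQ mn md k (eP1 2)
  let Q2 := eQ mn md k eP2
  eFull md den g c3 c4 (2 * mn ^ 2) h a k a'
    (eN P0 P1 P2 Q0 Q1 Q2) (eN P0 P1 P2 Q1 Q2 Q0) (eN P0 P1 P2 Q2 Q0 Q1)
    (eN P0 P1 P2 Q0 Q2 Q1) (eN P0 P1 P2 Q2 Q1 Q0) (eN P0 P1 P2 Q1 Q0 Q2)
    (eE P0 P1 P2 Q0 Q1 Q2) (eE P0 P1 P2 Q1 Q2 Q0) (eE P0 P1 P2 Q2 Q0 Q1)
    (eE P0 P1 P2 Q0 Q2 Q1) (eE P0 P1 P2 Q2 Q1 Q0) (eE P0 P1 P2 Q1 Q0 Q2)

end PEQ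

/-! ### Semantics of the expression -/

/-- The real counterpart of `eFull`. -/
def coreFull (md den g c3 c4 mb h a k a' n1 n2 n3 n4 n5 n6 e1 e2 e3 e4 e5 e6 : ℝ) : ℝ :=
  18 * md * ((h * k * (n1 ^ 3 * (n2 ^ 3 * (n3 ^ 3 * (n4 ^ 3 * (n5 ^ 3 * n6 ^ 3)))))) *
      (den * ((2 * a) ^ 2 * (md ^ 2 * k ^ 2) ^ 2 + (mb * a') ^ 2 * h ^ 4)
        + g * ((2 * a) * (mb * a') * (h ^ 2 * (md ^ 2 * k ^ 2)))
        + c3 * ((2 * a) ^ 2 * (mb * a') * (md ^ 2 * k ^ 2))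
        + c4 * ((2 * a) * (mb * a') ^ 2 * h ^ 2)))
    - den * (h ^ 4 * (md ^ 2 * k ^ 2) ^ 2 *
      (e1 ^ 2 * (n2 ^ 3 * (n3 ^ 3 * (n4 ^ 3 * (n5 ^ 3 * n6 ^ 3))))
        + e2 ^ 2 * (n1 ^ 3 * (n3 ^ 3 * (n4 ^ 3 * (n5 ^ 3 * n6 ^ 3))))
        + e3 ^ 2 * (n1 ^ 3 * (n2 ^ 3 * (n4 ^ 3 * (n5 ^ 3 * n6 ^ 3))))
        + e4 ^ 2 * (n1 ^ 3 * (n2 ^ 3 * (n3 ^ 3 * (n5 ^ 3 * n6 ^ 3))))
        + e5 ^ 2 * (n1 ^ 3 * (n2 ^ 3 * (n3 ^ 3 * (n4 ^ 3 * n6 ^ 3))))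
        + e6 ^ 2 * (n1 ^ 3 * (n2 ^ 3 * (n3 ^ 3 * (n4 ^ 3 * n5 ^ 3))))))

open PEQ Vale.Agent.Lib.Common.Kron.PE in
theorem evalR_eFull (x : ℕ → ℝ) (md den g c3 c4 mb : ℕ) (h a k a' n1 n2 n3 n4 n5 n6 e1 e2 e3 e4 e5 e6 : PEQ.E) :
    evalR x (eFull md den g c3 c4 mb h a k a' n1 n2 n3 n4 n5 n6 e1 e2 e3 e4 e5 e6)
      = coreFull md den g c3 c4 mb (evalR x h) (evalR x a) (evalR x k) (evalR x a')
        (evalR x n1) (evalR x n2) (evalR x n3) (evalR x n4) (evalR x n5) (evalR x n6)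
        (evalR x e1) (evalR x e2) (evalR x e3) (evalR x e4) (evalR x e5) (evalR x e6) := by
  simp only [eFull, PEQ.sub, PEQ.cub, evalR, coreFull]
  push_cast
  ring

/-- The real forms. -/
def rP0 (u v : ℝ) : ℝ := 1 + 3 * u + 3 * v
def rP1 (u : ℝ) : ℝ := 1 + 3 * u
def rK (u v : ℝ) : ℝ := 1 + 2 * u + v
def rA (u v : ℝ) : ℝ := u ^ 2 + u * v + v ^ 2
def rQ (mn md k P : ℝ) : ℝ := (md + mn) * k - mn * P
def rN (x1 x2 x3 y1 y2 y3 : ℝ) : ℝ := x1 * y1 + x2 * y2 + x3 * y3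
def rE (x1 x2 x3 y1 y2 y3 : ℝ) : ℝ :=
  3 * ((x1 * y1) ^ 2 + (x2 * y2) ^ 2 + (x3 * y3) ^ 2) - rN x1 x2 x3 y1 y2 y3 ^ 2

open PEQ Vale.Agent.Lib.Common.Kron.PE in
theorem evalR_ePolyQ (mn md den g c3 c4 : ℕ) (u v u' v' : ℝ) :
    evalR (ptv u v u' v') (ePolyQ mn md den g c3 c4)
      = coreFull md den g c3 c4 ((2 * mn ^ 2 : ℕ) : ℝ) (rK u v) (rA u v) (rK u' v') (rA u' v')
        (rN (rP0 u v) (rP1 u) 1 (rQ mn md (rK u' v') (rP0 u' v')) (rQ mn md (rK u' v') (rP1 u')) (rQ mn md (rK u' v') 1))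
        (rN (rP0 u v) (rP1 u) 1 (rQ mn md (rK u' v') (rP1 u')) (rQ mn md (rK u' v') 1) (rQ mn md (rK u' v') (rP0 u' v')))
        (rN (rP0 u v) (rP1 u) 1 (rQ mn md (rK u' v') 1) (rQ mn md (rK u' v') (rP0 u' v')) (rQ mn md (rK u' v') (rP1 u')))
        (rN (rP0 u v) (rP1 u) 1 (rQ mn md (rK u' v') (rP0 u' v')) (rQ mn md (rK u' v') 1) (rQ mn md (rK u' v') (rP1 u')))
        (rN (rP0 u v) (rP1 u) 1 (rQ mn md (rK u' v') 1) (rQ mn md (rK u' v') (rP1 u')) (rQ mn md (rK u' v') (rP0 u' v')))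
        (rN (rP0 u v) (rP1 u) 1 (rQ mn md (rK u' v') (rP1 u')) (rQ mn md (rK u' v') (rP0 u' v')) (rQ mn md (rK u' v') 1))
        (rE (rP0 u v) (rP1 u) 1 (rQ mn md (rK u' v') (rP0 u' v')) (rQ mn md (rK u' v') (rP1 u')) (rQ mn md (rK u' v') 1))
        (rE (rP0 u v) (rP1 u) 1 (rQ mn md (rK u' v') (rP1 u')) (rQ mn md (rK u' v') 1) (rQ mn md (rK u' v') (rP0 u' v')))
        (rE (rP0 u v) (rP1 u) 1 (rQ mn md (rK u' v') 1) (rQ mn md (rK u' v') (rP0 u' v')) (rQ mn md (rK u' v') (rP1 u')))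
        (rE (rP0 u v) (rP1 u) 1 (rQ mn md (rK u' v') (rP0 u' v')) (rQ mn md (rK u' v') 1) (rQ mn md (rK u' v') (rP1 u')))
        (rE (rP0 u v) (rP1 u) 1 (rQ mn md (rK u' v') 1) (rQ mn md (rK u' v') (rP1 u')) (rQ mn md (rK u' v') (rP0 u' v')))
        (rE (rP0 u v) (rP1 u) 1 (rQ mn md (rK u' v') (rP1 u')) (rQ mn md (rK u' v') (rP0 u' v')) (rQ mn md (rK u' v') 1)) := by
  simp only [ePolyQ]
  rw [evalR_eFull]
  have e1 : ∀ i j : ℕ, ∀ x : ℕ → ℝ, evalR x (eK i j) = rK (x i) (x j) := by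
    intro i j x
    simp only [eK, evalR, rK]
    push_cast
    ring
  have e2 : ∀ i j : ℕ, ∀ x : ℕ → ℝ, evalR x (eP0 i j) = rP0 (x i) (x j) := by
    intro i j x
    simp only [eP0, evalR, rP0]
    push_cast
    ring
  have e3 : ∀ i : ℕ, ∀ x : ℕ → ℝ, evalR x (eP1 i) = rP1 (x i) := by
    intro i x
    simp only [eP1, evalR, rP1]
    push_cast
    ring
  have e4 : ∀ x : ℕ → ℝ, evalR x eP2 = 1 := by
    intro x
    simp [eP2, evalR]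
  have e5 : ∀ (m d : ℕ) (K P : PEQ.E) (x : ℕ → ℝ), evalR x (eQ m d K P) = rQ m d (evalR x K) (evalR x P) := by
    intro m d K P x
    simp only [eQ, PEQ.sub, evalR, rQ]
    push_cast
    ring
  have e6 : ∀ (x1 x2 x3 y1 y2 y3 : PEQ.E) (x : ℕ → ℝ), evalR x (eN x1 x2 x3 y1 y2 y3)
      = rN (evalR x x1) (evalR x x2) (evalR x x3) (evalR x y1) (evalR x y2) (evalR x y3) := by
    intro x1 x2 x3 y1 y2 y3 x
    simp only [eN, evalR, rN]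
  have e7 : ∀ (x1 x2 x3 y1 y2 y3 : PEQ.E) (x : ℕ → ℝ), evalR x (eE x1 x2 x3 y1 y2 y3)
      = rE (evalR x x1) (evalR x x2) (evalR x x3) (evalR x y1) (evalR x y2) (evalR x y3) := by
    intro x1 x2 x3 y1 y2 y3 x
    simp only [eE, PEQ.sub, evalR, rE, e6]
    push_cast
    ring
  have e8 : ∀ i j : ℕ, ∀ x : ℕ → ℝ, evalR x (add (add (pow (.v i) 2) (mul (.v i) (.v j))) (pow (.v j) 2))
      = rA (x i) (x j) := by
    intro i j x
    simp only [evalR, rA]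
  simp only [e1, e2, e3, e4, e5, e6, e7, e8, ptv]

end Vale.Agent.Lib.P154.Cl
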