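import Vale.Agent.Lib.P154_cl98.PointQ

/-!
The product bound for the fourth-moment functional.
-/

noncomputable section

open Finset

namespace Vale.Agent.Lib.P154.Cl

open Vale.Agent.Lib.P154
open Vale.Agent.Lib.Common.Kron

theorem gQ_swap12 (x y z : ℝ) : gQ y x z = gQ x y z := by
  unfold gQ fN F3
  rw [show y + x + z = x + y + z by ring, show y ^ 2 + x ^ 2 + z ^ 2 = x ^ 2 + y ^ 2 + z ^ 2 by ring]

theorem gQ_swap23 (x y z : ℝ) : gQ x z y = gQ x y z := by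
  unfold gQ fN F3
  rw [show x + z + y = x + y + z by ring, show x ^ 2 + z ^ 2 + y ^ 2 = x ^ 2 + y ^ 2 + z ^ 2 by ring]

theorem gQ_swap13 (x y z : ℝ) : gQ z y x = gQ x y z := by
  unfold gQ fN F3
  rw [show z + y + x = x + y + z by ring, show z ^ 2 + y ^ 2 + x ^ 2 = x ^ 2 + y ^ 2 + z ^ 2 by ring]

theorem six_swapL12 (a b c p q r : ℝ) : six gQ b a c p q r = six gQ a b c p q r := by
  unfold six
  rw [gQ_swap12 (a * q) (b * p), gQ_swap12 (a * r) (b * q), gQ_swap12 (a * p) (b * r),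
    gQ_swap12 (a * r) (b * p), gQ_swap12 (a * q) (b * r), gQ_swap12 (a * p) (b * q)]
  ring

theorem six_swapL23 (a b c p q r : ℝ) : six gQ a c b p q r = six gQ a b c p q r := by
  unfold six
  rw [gQ_swap23 (a * p) (b * r), gQ_swap23 (a * q) (b * p), gQ_swap23 (a * r) (b * q),
    gQ_swap23 (a * p) (b * q), gQ_swap23 (a * r) (b * p), gQ_swap23 (a * q) (b * r)]
  ring

theorem six_swapR12 (a b c p q r : ℝ) : six gQ a b c q p r = six gQ a b c p q r := by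
  unfold six
  ring

theorem six_swapR23 (a b c p q r : ℝ) : six gQ a b c p r q = six gQ a b c p q r := by
  unfold six
  ring

theorem sort3 (P : ℝ → ℝ → ℝ → Prop) (h12 : ∀ x y z, P x y z → P y x z) (h23 : ∀ x y z, P x y z → P x z y)
    (hs : ∀ x y z, y ≤ x → z ≤ y → P x y z) (a b c : ℝ) : P a b c := by
  rcases le_total a b with h1 | h1 <;> rcases le_total b c with h2 | h2 <;>
    rcases le_total a c with h3 | h3
  · exact h12 _ _ _ (h23 _ _ _ (h12 _ _ _ (hs c b a h2 h1)))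
  · exact h12 _ _ _ (h23 _ _ _ (h12 _ _ _ (hs c b a h2 h1)))
  · exact h12 _ _ _ (h23 _ _ _ (hs b c a h2 h3))
  · exact h12 _ _ _ (hs b a c h1 h3)
  · exact h23 _ _ _ (h12 _ _ _ (hs c a b h3 h1))
  · exact h23 _ _ _ (hs a c b h3 h2)
  · exact hs a b c h1 h2
  · exact hs a b c h1 h2

theorem param_sorted (a b c : ℝ) (hab : b ≤ a) (hbc : c ≤ b) (hc : 0 < c) (hs : a + b + c = 1) :
    ∃ u v : ℝ, 0 ≤ u ∧ 0 ≤ v ∧ a = rP0 u v / (3 * rK u v) ∧ b = rP1 u / (3 * rK u v) ∧ c = 1 / (3 * rK u v) := by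
  have e : rK ((b - c) / (3 * c)) ((a - b) / (3 * c)) = 1 / (3 * c) := by
    unfold rK
    field_simp
    linarith
  refine ⟨(b - c) / (3 * c), (a - b) / (3 * c), div_nonneg (by linarith) (by positivity),
    div_nonneg (by linarith) (by positivity), ?_, ?_, ?_⟩
  · rw [e]
    unfold rP0
    field_simp
    ring
  · rw [e]
    unfold rP1
    field_simp
    ring
  · rw [e]
    field_simp

theorem param_capped (mn md : ℕ) (hmn : 0 < mn) (hmd : 0 < md) (p q r : ℝ) (hpq : p ≤ q) (hqr : q ≤ r)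
    (hr : r < (1 + (mn / md : ℝ)) / 3) (hs : p + q + r = 1) :
    ∃ u v : ℝ, 0 ≤ u ∧ 0 ≤ v ∧ p = rQ mn md (rK u v) (rP0 u v) / (3 * md * rK u v)
      ∧ q = rQ mn md (rK u v) (rP1 u) / (3 * md * rK u v) ∧ r = rQ mn md (rK u v) 1 / (3 * md * rK u v) := by
  have hmn' : (0 : ℝ) < mn := by exact_mod_cast hmn
  have hmd' : (0 : ℝ) < md := by exact_mod_cast hmd
  set μ : ℝ := (mn : ℝ) / md with hμ
  have hμ0 : 0 < μ := by positivity
  set x := ((1 + μ) / 3 - p) / μ with hx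
  set y := ((1 + μ) / 3 - q) / μ with hy
  set z := ((1 + μ) / 3 - r) / μ with hz
  have hxy : y ≤ x := by
    rw [hx, hy]
    exact div_le_div_of_nonneg_right (by linarith) hμ0.le
  have hyz : z ≤ y := by
    rw [hy, hz]
    exact div_le_div_of_nonneg_right (by linarith) hμ0.le
  have hz0 : 0 < z := div_pos (by linarith) hμ0
  have hsum : x + y + z = 1 := by
    rw [hx, hy, hz]
    field_simp
    linarith
  obtain ⟨u, v, hu, hv, e1, e2, e3⟩ := param_sorted x y z hxy hyz hz0 hsum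
  have hK : 0 < rK u v := by unfold rK; positivity
  have key : ∀ t w P : ℝ, w = ((1 + μ) / 3 - t) / μ → w = P / (3 * rK u v) →
      t = rQ mn md (rK u v) P / (3 * md * rK u v) := by
    intro t w P h1 h2
    have h3 : t = (1 + μ) / 3 - μ * w := by
      rw [h1]
      field_simp
      ring
    rw [h3, h2]
    unfold rQ
    rw [hμ]
    field_simp
  exact ⟨u, v, hu, hv, key p x _ hx e1, key q y _ hy e2, key r z _ hz e3⟩

/-- The normalised bound, in sorted coordinates. -/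
theorem coreQ_sorted {mn md den g c3 c4 Kb : ℕ} {rad : List ℕ} (hmn0 : 0 < mn) (hmd : 0 < md) (hden : 0 < den)
    (hmn : 2 * mn ≤ md) (hc : check (PEQ.ePolyQ mn md den g c3 c4) Kb rad = true) (a b c p q r : ℝ)
    (hab : b ≤ a) (hbc : c ≤ b) (hc0 : 0 < c) (hs : a + b + c = 1) (hpq : p ≤ q) (hqr : q ≤ r)
    (hr : r < (1 + (mn / md : ℝ)) / 3) (hs' : p + q + r = 1) :
    six gQ a b c p q r ≤ 2 / 3 * ((2 * A3 a b c) ^ 2 + (2 * A3 p q r) ^ 2
      + g / den * ((2 * A3 a b c) * (2 * A3 p q r))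
      + c3 / den * ((2 * A3 a b c) ^ 2 * (2 * A3 p q r))
      + c4 / den * ((2 * A3 a b c) * (2 * A3 p q r) ^ 2)) := by
  obtain ⟨u, v, hu, hv, e1, e2, e3⟩ := param_sorted a b c hab hbc hc0 hs
  obtain ⟨u', v', hu', hv', e4, e5, e6⟩ := param_capped mn md hmn0 hmd p q r hpq hqr hr hs'
  have hK : rK u v ≠ 0 := by unfold rK; positivity
  have hK' : rK u' v' ≠ 0 := by unfold rK; positivity
  have hmd' : (md : ℝ) ≠ 0 := by positivity
  have hA := A3_param u v hK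
  have hA' := A3_paramQ mn md u' v' hK' hmd'
  rw [← e1, ← e2, ← e3] at hA
  rw [← e4, ← e5, ← e6] at hA'
  have h := six_gQ_param hmd hden hmn hc u v u' v' hu hv hu' hv'
  rw [← e1, ← e2, ← e3, ← e4, ← e5, ← e6, ← hA, ← hA'] at h
  exact h

/-- The normalised bound. -/
theorem coreQ {mn md den g c3 c4 Kb : ℕ} {rad : List ℕ} (hmn0 : 0 < mn) (hmd : 0 < md) (hden : 0 < den)
    (hmn : 2 * mn ≤ md) (hc : check (PEQ.ePolyQ mn md den g c3 c4) Kb rad = true) (a b c p q r : ℝ)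
    (ha : 0 < a) (hb : 0 < b) (hc0 : 0 < c) (hs : a + b + c = 1)
    (hp : p < (1 + (mn / md : ℝ)) / 3) (hq : q < (1 + (mn / md : ℝ)) / 3)
    (hr : r < (1 + (mn / md : ℝ)) / 3) (hs' : p + q + r = 1) :
    six gQ a b c p q r ≤ 2 / 3 * ((2 * A3 a b c) ^ 2 + (2 * A3 p q r) ^ 2
      + g / den * ((2 * A3 a b c) * (2 * A3 p q r))
      + c3 / den * ((2 * A3 a b c) ^ 2 * (2 * A3 p q r))
      + c4 / den * ((2 * A3 a b c) * (2 * A3 p q r) ^ 2)) := by
  -- sort the left triple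
  have L : ∀ x y z : ℝ, 0 < x → 0 < y → 0 < z → x + y + z = 1 →
      ∀ p q r : ℝ, q ≤ r → p ≤ q → r < (1 + (mn / md : ℝ)) / 3 → p + q + r = 1 →
      six gQ x y z p q r ≤ 2 / 3 * ((2 * A3 x y z) ^ 2 + (2 * A3 p q r) ^ 2
      + g / den * ((2 * A3 x y z) * (2 * A3 p q r))
      + c3 / den * ((2 * A3 x y z) ^ 2 * (2 * A3 p q r))
      + c4 / den * ((2 * A3 x y z) * (2 * A3 p q r) ^ 2)) := by
    intro x y z
    refine sort3 (fun x y z => 0 < x → 0 < y → 0 < z → x + y + z = 1 →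
      ∀ p q r : ℝ, q ≤ r → p ≤ q → r < (1 + (mn / md : ℝ)) / 3 → p + q + r = 1 →
      six gQ x y z p q r ≤ 2 / 3 * ((2 * A3 x y z) ^ 2 + (2 * A3 p q r) ^ 2
      + g / den * ((2 * A3 x y z) * (2 * A3 p q r))
      + c3 / den * ((2 * A3 x y z) ^ 2 * (2 * A3 p q r))
      + c4 / den * ((2 * A3 x y z) * (2 * A3 p q r) ^ 2))) ?_ ?_ ?_ x y z
    · intro x y z H hy hx hz hsum p q r h1 h2 h3 h4
      have := H hx hy hz (by linarith) p q r h1 h2 h3 h4
      rw [six_swapL12, A3_swap1 y x z]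
      exact this
    · intro x y z H hx hz hy hsum p q r h1 h2 h3 h4
      have := H hx hy hz (by linarith) p q r h1 h2 h3 h4
      rw [six_swapL23, A3_swap2 x z y]
      exact this
    · intro x y z h1 h2 hx hy hz hsum p q r h3 h4 h5 h6
      exact coreQ_sorted hmn0 hmd hden hmn hc x y z p q r h1 h2 hz hsum h4 h3 h5 h6
  -- sort the right triple
  refine sort3 (fun r q p => p < (1 + (mn / md : ℝ)) / 3 → q < (1 + (mn / md : ℝ)) / 3 →
      r < (1 + (mn / md : ℝ)) / 3 → p + q + r = 1 →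
      six gQ a b c p q r ≤ 2 / 3 * ((2 * A3 a b c) ^ 2 + (2 * A3 p q r) ^ 2
      + g / den * ((2 * A3 a b c) * (2 * A3 p q r))
      + c3 / den * ((2 * A3 a b c) ^ 2 * (2 * A3 p q r))
      + c4 / den * ((2 * A3 a b c) * (2 * A3 p q r) ^ 2))) ?_ ?_ ?_ r q p hp hq hr hs'
  · intro r q p H hp hr hq hsum
    have := H hp hq hr (by linarith)
    rw [six_swapR23, A3_swap2 p r q]
    exact this
  · intro r q p H hq hp hr hsum
    have := H hp hq hr (by linarith)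
    rw [six_swapR12, A3_swap1 q p r]
    exact this
  · intro r q p h1 h2 hp hq hr hsum
    exact L a b c ha hb hc0 hs p q r h1 h2 hr hsum

/-- Homogeneous form. -/
theorem homQ {mn md den g c3 c4 Kb : ℕ} {rad : List ℕ} (hmn0 : 0 < mn) (hmd : 0 < md) (hden : 0 < den)
    (hmn : 2 * mn ≤ md) (hc : check (PEQ.ePolyQ mn md den g c3 c4) Kb rad = true) (a b c p q r : ℝ)
    (ha : 0 < a) (hb : 0 < b) (hc0 : 0 < c) (hp : 0 < p) (hq : 0 < q) (hr : 0 < r)
    (hp1 : p < (1 + (mn / md : ℝ)) / 3 * (p + q + r)) (hq1 : q < (1 + (mn / md : ℝ)) / 3 * (p + q + r))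
    (hr1 : r < (1 + (mn / md : ℝ)) / 3 * (p + q + r)) :
    six gQ a b c p q r ≤ 2 * (p + q + r) * gQ a b c + 2 * (a + b + c) * gQ p q r
      + 6 * (g / den) * (fN a b c * fN p q r) + 6 * (c3 / den) * (gQ a b c * fN p q r)
      + 6 * (c4 / den) * (fN a b c * gQ p q r) := by
  obtain ⟨N, a', b', c', hN0, hNe, ha', hb', hc', hs, rfl, rfl, rfl⟩ := norm_coord a b c ha hb hc0
  obtain ⟨M, p', q', r', hM, hMe, hp', hq', hr', hs', hpe, hqe, hre⟩ := norm_coord p q r hp hq hr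
  subst hpe hqe hre
  have e1 : N * a' + N * b' + N * c' = N := by rw [← mul_add, ← mul_add, hs, mul_one]
  have e2 : M * p' + M * q' + M * r' = M := by rw [← mul_add, ← mul_add, hs', mul_one]
  rw [e2] at hp1 hq1 hr1
  have hp1' : p' < (1 + (mn / md : ℝ)) / 3 := by
    have : M * p' < M * ((1 + (mn / md : ℝ)) / 3) := by linarith
    exact lt_of_mul_lt_mul_left this hM.le
  have hq1' : q' < (1 + (mn / md : ℝ)) / 3 := by
    have : M * q' < M * ((1 + (mn / md : ℝ)) / 3) := by linarith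
    exact lt_of_mul_lt_mul_left this hM.le
  have hr1' : r' < (1 + (mn / md : ℝ)) / 3 := by
    have : M * r' < M * ((1 + (mn / md : ℝ)) / 3) := by linarith
    exact lt_of_mul_lt_mul_left this hM.le
  have hcore := coreQ hmn0 hmd hden hmn hc a' b' c' p' q' r' ha' hb' hc' hs hp1' hq1' hr1' hs'
  rw [six_smul gQ (fun k x y z hk => gQ_smul k x y z hk) N M _ _ _ _ _ _ hN0.ne' hM.ne']
  have hN1 : fN (N * a') (N * b') (N * c') = N * ((2 / 3) * A3 a' b' c') := by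
    unfold fN
    rw [F3_smul N _ _ _ hN0.ne', e1, F3_eq_of_sum _ _ _ hs]; ring
  have hN2 : fN (M * p') (M * q') (M * r') = M * ((2 / 3) * A3 p' q' r') := by
    unfold fN
    rw [F3_smul M _ _ _ hM.ne', e2, F3_eq_of_sum _ _ _ hs']; ring
  have hQ1 : gQ (N * a') (N * b') (N * c') = N * (4 / 3 * A3 a' b' c' ^ 2) := by
    rw [gQ_smul N _ _ _ hN0.ne', gQ_norm _ _ _ hs]
  have hQ2 : gQ (M * p') (M * q') (M * r') = M * (4 / 3 * A3 p' q' r' ^ 2) := by
    rw [gQ_smul M _ _ _ hM.ne', gQ_norm _ _ _ hs']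
  rw [hN1, hN2, hQ1, hQ2, e1, e2]
  have hNM : 0 < N * M := mul_pos hN0 hM
  have := mul_le_mul_of_nonneg_left hcore hNM.le
  calc _ ≤ _ := this
    _ = _ := by ring

section
variable {ι κ : Type*} [Fintype ι] [Fintype κ]

theorem sum_bilinQ (n f Q : ι → ℝ) (m g R : κ → ℝ) (γ c3 c4 : ℝ) :
    ∑ t, ∑ t', (2 * m t' * Q t + 2 * n t * R t' + 6 * γ * (f t * g t') + 6 * c3 * (Q t * g t')
        + 6 * c4 * (f t * R t'))
      = 2 * (∑ t', m t') * (∑ t, Q t) + 2 * (∑ t, n t) * (∑ t', R t') + 6 * γ * ((∑ t, f t) * (∑ t', g t'))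
        + 6 * c3 * ((∑ t, Q t) * (∑ t', g t')) + 6 * c4 * ((∑ t, f t) * (∑ t', R t')) := by
  simp only [Finset.sum_add_distrib, ← Finset.mul_sum, ← Finset.sum_mul]

theorem QQ_prod_eq (l : ι → Fin 3 → ℝ) (l' : κ → Fin 3 → ℝ) :
    QQ (prodS l l') = ∑ t, ∑ t', gQ (l t 0 * l' t' 0) (l t 1 * l' t' 1) (l t 2 * l' t' 2) := by
  unfold QQ prodS
  rw [Fintype.sum_prod_type]

theorem six_sumQ (l : ι → Fin 3 → ℝ) {l' : κ → Fin 3 → ℝ} (h' : WSig l') :
    6 * QQ (prodS l l') = ∑ t, ∑ t', six gQ (l t 0) (l t 1) (l t 2) (l' t' 0) (l' t' 1) (l' t' 2) := by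
  rw [QQ_prod_eq, Finset.mul_sum]
  refine Finset.sum_congr rfl fun t _ => ?_
  exact six_sum h' gQ _ _ _

/-- A strict cap on the atoms of a signal. -/
def StrictCap (μ : ℝ) (l : ι → Fin 3 → ℝ) : Prop :=
  ∀ t i, l t i < (1 + μ) / 3 * (l t 0 + l t 1 + l t 2)

/-- The product bound for the fourth-moment functional. -/
theorem QQ_prod {mn md den g c3 c4 Kb : ℕ} {rad : List ℕ} (hmn0 : 0 < mn) (hmd : 0 < md) (hden : 0 < den)
    (hmn : 2 * mn ≤ md) (hc : check (PEQ.ePolyQ mn md den g c3 c4) Kb rad = true)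
    {l : ι → Fin 3 → ℝ} {l' : κ → Fin 3 → ℝ} (h : IsSig l) (h' : IsSig l')
    (hcap : StrictCap ((mn : ℝ) / md) l') :
    QQ (prodS l l') ≤ QQ l + QQ l' + 9 * (g / den) * (xx l * xx l') + 3 * (c3 / den) * (QQ l * xx l')
      + 3 * (c4 / den) * (xx l * QQ l') := by
  have e := six_sumQ l h'.toW
  have b : ∑ t, ∑ t', six gQ (l t 0) (l t 1) (l t 2) (l' t' 0) (l' t' 1) (l' t' 2)
      ≤ ∑ t, ∑ t', (2 * (l' t' 0 + l' t' 1 + l' t' 2) * gQ (l t 0) (l t 1) (l t 2)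
        + 2 * (l t 0 + l t 1 + l t 2) * gQ (l' t' 0) (l' t' 1) (l' t' 2)
        + 6 * ((g : ℝ) / den) * (fN (l t 0) (l t 1) (l t 2) * fN (l' t' 0) (l' t' 1) (l' t' 2))
        + 6 * ((c3 : ℝ) / den) * (gQ (l t 0) (l t 1) (l t 2) * fN (l' t' 0) (l' t' 1) (l' t' 2))
        + 6 * ((c4 : ℝ) / den) * (fN (l t 0) (l t 1) (l t 2) * gQ (l' t' 0) (l' t' 1) (l' t' 2))) := by
    refine Finset.sum_le_sum fun t _ => Finset.sum_le_sum fun t' _ => ?_
    exact homQ hmn0 hmd hden hmn hc _ _ _ _ _ _ (h.pos t 0) (h.pos t 1) (h.pos t 2)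
      (h'.pos t' 0) (h'.pos t' 1) (h'.pos t' 2) (hcap t' 0) (hcap t' 1) (hcap t' 2)
  rw [sum_bilinQ (fun t => l t 0 + l t 1 + l t 2) (fun t => fN (l t 0) (l t 1) (l t 2))
    (fun t => gQ (l t 0) (l t 1) (l t 2))
    (fun t' => l' t' 0 + l' t' 1 + l' t' 2)
    (fun t' => fN (l' t' 0) (l' t' 1) (l' t' 2)) (fun t' => gQ (l' t' 0) (l' t' 1) (l' t' 2)),
    sum_N h.tot, sum_N h'.tot, sum_f h.tot, sum_f h'.tot, ← e] at b
  change _ ≤ 2 * 3 * QQ l + 2 * 3 * QQ l' + 6 * ((g : ℝ) / den) * ((3 * xx l) * (3 * xx l'))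
    + 6 * ((c3 : ℝ) / den) * (QQ l * (3 * xx l')) + 6 * ((c4 : ℝ) / den) * ((3 * xx l) * QQ l') at b
  nlinarith [b]

end

end Vale.Agent.Lib.P154.Cl
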