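import Vale.Agent.Lib.P154_cl98.BdB

/-!
The scalar recursion for the powers of a capped signal, in exact arithmetic with outward rounding.
-/

noncomputable section

open Finset

namespace Vale.Agent.Lib.P154.Cl

open Vale.Agent.Lib.P154
open Vale.Agent.Lib.Common.Kron

/-- Constants of a chi-square bound: `β = bn / den`, `θ = tn / den`, `g1 = g1 / den`, `g2 = g2 / den`. -/
structure XC where
  den : ℕ
  bn : ℕ
  tn : ℕ
  g1 : ℕ
  g2 : ℕ

/-- Constants of the fourth-moment bound. -/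
structure QC where
  mn : ℕ
  md : ℕ
  den : ℕ
  g : ℕ
  c3 : ℕ
  c4 : ℕ

/-- Constants of the third-moment bound. -/
structure BC where
  den : ℕ
  en : ℕ
  dn : ℕ
  rn : ℕ
  rd : ℕ

/-- All constants. -/
structure Par where
  c0 : XC
  cs : List XC
  q0 : QC
  qs : List QC
  b : BC

/-- Forcing a numeral. -/
def force {α : Type} (n : ℕ) (k : ℕ → α) : α :=
  match n with
  | 0 => k 0
  | m + 1 => k (m + 1)

theorem force_eq {α : Type} (n : ℕ) (k : ℕ → α) : force n k = k n := by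
  cases n <;> rfl

/-- Rounded step for the chi-square functional. -/
def stepX (c : XC) (S x q X Q B : ℕ) : ℕ :=
  X + x + (4 * c.tn * (x * B) + c.g1 * (Q * x) + c.g2 * (X * q)) / (4 * c.den * S) + 1
    - (2 * c.bn * (X * x)) / (4 * c.den * S)

/-- Rounded step for the fourth-moment functional. -/
def stepQ (c : QC) (S x q X Q : ℕ) : ℕ :=
  Q + q + (c.g * (X * x) + c.c3 * (Q * x) + c.c4 * (X * q)) / (c.den * S) + 1

/-- Rounded step for the third-moment functional. -/
def stepB (S b B : ℕ) : ℕ := B + b - (B * b) / S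

/-- The step allowing for a smaller first argument. -/
def stepY (c : XC) (S x q X Q B : ℕ) : ℕ :=
  max (stepX c S x q X Q B) (X + (c.g2 * (X * q)) / (4 * c.den * S) + 1)

/-- The best of the steps. -/
def stepMin (P : Par) (S x q X Q B : ℕ) : ℕ :=
  P.cs.foldl (fun a c => min a (stepY c S x q X Q B)) (stepY P.c0 S x q X Q B)

/-- The best of the fourth-moment steps. -/
def stepQMin (P : Par) (S x q X Q : ℕ) : ℕ :=
  P.qs.foldl (fun a c => min a (stepQ c S x q X Q)) (stepQ P.q0 S x q X Q)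

/-- Side condition for the monotonicity of the step. -/
def okC (c : XC) (S x : ℕ) : Bool := Nat.ble (c.bn * x) (2 * c.den * S)

/-- The inner loop: `k` further factors. -/
def inner (P : Par) (S x q b : ℕ) : ℕ → ℕ → ℕ → ℕ → ℕ × ℕ
  | 0, X, Q, _ => (X, Q)
  | k + 1, X, Q, B =>
      force (stepMin P S x q X Q B) fun X' =>
      force (stepQMin P S x q X Q) fun Q' =>
      force (stepB S b B) fun B' => inner P S x q b k X' Q' B'

/-- One level of the tree. -/
def lvl (P : Par) (S d X Q : ℕ) : Option (ℕ × ℕ) :=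
  force (X / d + 1) fun x =>
  force (Q / (d * d) + 1) fun q =>
  force (min (((P.b.den + P.b.en) * x + P.b.dn * q) / P.b.den + 1) (P.b.rn * x / P.b.rd + 1)) fun b =>
    if b ≤ S ∧ okC P.c0 S x = true ∧ P.cs.all (fun c => okC c S x) = true then
      match inner P S x q b d 0 0 0 with
      | (X', Q') => some (X', min Q' (2 * X'))
    else none

/-- Many levels of the tree. -/
def chainN (P : Par) (S d : ℕ) : ℕ → ℕ → ℕ → Option (ℕ × ℕ)
  | 0, X, Q => some (X, Q)
  | n + 1, X, Q =>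
    match lvl P S d X Q with
    | some (X', Q') => force X' fun X'' => force Q' fun Q'' => chainN P S d n X'' Q''
    | none => none

/-- The verdict of a chain. -/
def chainOK (P : Par) (S d n X Q Xf Qf : ℕ) : Bool :=
  match chainN P S d n X Q with
  | some (X', Q') => Nat.ble X' Xf && Nat.ble Q' Qf
  | none => false

/-! ### Real meaning -/

/-- The real constants. -/
def XC.A (c : XC) : ℝ := c.bn / (2 * c.den)
def XC.T (c : XC) : ℝ := c.tn / c.den
def XC.C1 (c : XC) : ℝ := c.g1 / (4 * c.den)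
def XC.C2 (c : XC) : ℝ := c.g2 / (4 * c.den)

/-- The right side of the chi-square recursion. -/
def recX (c : XC) (M y N R q : ℝ) : ℝ :=
  M + y - c.A * (M * y) + c.T * (y * N) + c.C1 * (R * y) + c.C2 * (M * q)

/-- The right side of the fourth-moment recursion. -/
def recQ (c : QC) (M y R q : ℝ) : ℝ :=
  R + q + (c.g / c.den) * (M * y) + (c.c3 / c.den) * (R * y) + (c.c4 / c.den) * (M * q)

/-- Monotonicity of the chi-square recursion. -/
theorem recX_mono (c : XC) {M y N R q X x B Q qb : ℝ} (hM0 : 0 ≤ M) (hMX : M ≤ X) (hy0 : 0 ≤ y) (hyx : y ≤ x)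
    (hN0 : 0 ≤ N) (hNB : N ≤ B) (hR0 : 0 ≤ R) (hRQ : R ≤ Q) (hq0 : 0 ≤ q) (hqb : q ≤ qb)
    (hAX : c.A * X ≤ 1) (hAx : c.A * x ≤ 1) :
    recX c M y N R q ≤ recX c X x B Q qb := by
  have hA : 0 ≤ c.A := by unfold XC.A; positivity
  have hT : 0 ≤ c.T := by unfold XC.T; positivity
  have hC1 : 0 ≤ c.C1 := by unfold XC.C1; positivity
  have hC2 : 0 ≤ c.C2 := by unfold XC.C2; positivity
  have hx0 : 0 ≤ x := hy0.trans hyx
  have hqb0 : 0 ≤ qb := hq0.trans hqb
  have hAM : c.A * M ≤ 1 := (mul_le_mul_of_nonneg_left hMX hA).trans hAX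
  unfold recX
  -- first the arguments `y, q`
  have s1 : (x - y) * (1 - c.A * M + c.T * N + c.C1 * R) ≥ 0 := by
    apply mul_nonneg (by linarith)
    have : 0 ≤ c.T * N := mul_nonneg hT hN0
    have : 0 ≤ c.C1 * R := mul_nonneg hC1 hR0
    linarith
  have s2 : c.C2 * (M * (qb - q)) ≥ 0 := mul_nonneg hC2 (mul_nonneg hM0 (by linarith))
  -- then the arguments `M, N, R`
  have s3 : (X - M) * (1 - c.A * x + c.C2 * qb) ≥ 0 := by
    apply mul_nonneg (by linarith)
    have : 0 ≤ c.C2 * qb := mul_nonneg hC2 hqb0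
    linarith
  have s4 : c.T * (x * (B - N)) ≥ 0 := mul_nonneg hT (mul_nonneg hx0 (by linarith))
  have s5 : c.C1 * ((Q - R) * x) ≥ 0 := mul_nonneg hC1 (mul_nonneg (by linarith) hx0)
  nlinarith [s1, s2, s3, s4, s5]

/-- Monotonicity of the chi-square recursion without a bound on the first argument. -/
theorem recY_mono (c : XC) {M y N R q X x B Q qb : ℝ} (hM0 : 0 ≤ M) (hMX : M ≤ X) (hy0 : 0 ≤ y) (hyx : y ≤ x)
    (hNB : N ≤ B) (hRQ : R ≤ Q) (hq0 : 0 ≤ q) (hqb : q ≤ qb) (hAx : c.A * x ≤ 1) :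
    recX c M y N R q ≤ max (recX c X x B Q qb) (X + c.C2 * (X * qb)) := by
  have hA : 0 ≤ c.A := by unfold XC.A; positivity
  have hT : 0 ≤ c.T := by unfold XC.T; positivity
  have hC1 : 0 ≤ c.C1 := by unfold XC.C1; positivity
  have hC2 : 0 ≤ c.C2 := by unfold XC.C2; positivity
  have hx0 : 0 ≤ x := hy0.trans hyx
  have hqb0 : 0 ≤ qb := hq0.trans hqb
  have hAy : c.A * y ≤ 1 := (mul_le_mul_of_nonneg_left hyx hA).trans hAx
  have s1 : recX c M y N R q ≤ X * (1 - c.A * y + c.C2 * qb) + y * (1 + c.T * B + c.C1 * Q) := by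
    unfold recX
    have s2 : c.C2 * (M * (qb - q)) ≥ 0 := mul_nonneg hC2 (mul_nonneg hM0 (by linarith))
    have s3 : (X - M) * (1 - c.A * y + c.C2 * qb) ≥ 0 := by
      apply mul_nonneg (by linarith)
      have : 0 ≤ c.C2 * qb := mul_nonneg hC2 hqb0
      linarith
    have s4 : c.T * (y * (B - N)) ≥ 0 := mul_nonneg hT (mul_nonneg hy0 (by linarith))
    have s5 : c.C1 * ((Q - R) * y) ≥ 0 := mul_nonneg hC1 (mul_nonneg (by linarith) hy0)
    nlinarith [s2, s3, s4, s5]
  have e : X * (1 - c.A * y + c.C2 * qb) + y * (1 + c.T * B + c.C1 * Q)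
      = X + c.C2 * (X * qb) + y * (1 - c.A * X + c.T * B + c.C1 * Q) := by ring
  rw [e] at s1
  refine s1.trans ?_
  rcases le_total 0 (1 - c.A * X + c.T * B + c.C1 * Q) with hV | hV
  · apply le_max_of_le_left
    have s6 := mul_le_mul_of_nonneg_right hyx hV
    unfold recX
    nlinarith [s6]
  · apply le_max_of_le_right
    have s6 := mul_nonpos_of_nonneg_of_nonpos hy0 hV
    linarith

/-- Monotonicity of the fourth-moment recursion. -/
theorem recQ_mono (c : QC) {M y R q X x Q qb : ℝ} (hM0 : 0 ≤ M) (hMX : M ≤ X) (hy0 : 0 ≤ y) (hyx : y ≤ x)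
    (hR0 : 0 ≤ R) (hRQ : R ≤ Q) (hq0 : 0 ≤ q) (hqb : q ≤ qb) :
    recQ c M y R q ≤ recQ c X x Q qb := by
  have hg : (0 : ℝ) ≤ (c.g : ℝ) / c.den := by positivity
  have h3 : (0 : ℝ) ≤ (c.c3 : ℝ) / c.den := by positivity
  have h4 : (0 : ℝ) ≤ (c.c4 : ℝ) / c.den := by positivity
  have hx0 : 0 ≤ x := hy0.trans hyx
  have hX0 : 0 ≤ X := hM0.trans hMX
  have hQ0 : 0 ≤ Q := hR0.trans hRQ
  have hqb0 : 0 ≤ qb := hq0.trans hqb
  unfold recQ
  have e1 := mul_le_mul hMX hyx hy0 hX0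
  have e2 := mul_le_mul hRQ hyx hy0 hQ0
  have e3 := mul_le_mul hMX hqb hq0 hX0
  have := mul_le_mul_of_nonneg_left e1 hg
  have := mul_le_mul_of_nonneg_left e2 h3
  have := mul_le_mul_of_nonneg_left e3 h4
  linarith

/-- Monotonicity of the third-moment recursion. -/
theorem recB_mono {N b' B b : ℝ} (hN1 : N ≤ 1) (hNB : N ≤ B) (hb' : b' ≤ b) (hb1 : b ≤ 1) :
    N + b' - N * b' ≤ B + b - B * b := by
  nlinarith [mul_nonneg (sub_nonneg.2 hN1) (sub_nonneg.2 hb'), mul_nonneg (sub_nonneg.2 hNB) (sub_nonneg.2 hb1)]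

/-! ### Rounding -/

theorem nat_cast_sub_ge (a c : ℕ) : (a : ℝ) - c ≤ ((a - c : ℕ) : ℝ) := by
  rcases le_total c a with h | h
  · rw [Nat.cast_sub h]
  · have : (a : ℝ) ≤ c := by exact_mod_cast h
    have h0 : (0 : ℝ) ≤ ((a - c : ℕ) : ℝ) := Nat.cast_nonneg _
    linarith

theorem nat_div_ge (a D : ℕ) (hD : 0 < D) : (a : ℝ) / D ≤ ((a / D : ℕ) : ℝ) + 1 := by
  have hD' : (0 : ℝ) < D := by exact_mod_cast hD
  rw [div_le_iff₀ hD']
  have h1 : a < (a / D + 1) * D := by
    have e := Nat.div_add_mod a D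
    have e2 := Nat.mod_lt a hD
    nlinarith
  have h2 : (a : ℝ) ≤ (((a / D + 1) * D : ℕ) : ℝ) := by exact_mod_cast h1.le
  push_cast at h2
  linarith

theorem nat_div_le (a D : ℕ) : ((a / D : ℕ) : ℝ) ≤ (a : ℝ) / D := Nat.cast_div_le

/-- Rounding in the chi-square step. -/
theorem recX_le_step (c : XC) (S x q X Q B : ℕ) (hS : 0 < S) (hden : 0 < c.den) :
    recX c ((X : ℝ) / S) ((x : ℝ) / S) ((B : ℝ) / S) ((Q : ℝ) / S) ((q : ℝ) / S)
      ≤ (stepX c S x q X Q B : ℝ) / S := by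
  have hS' : (0 : ℝ) < S := by exact_mod_cast hS
  have hd' : (0 : ℝ) < c.den := by exact_mod_cast hden
  have hD : 0 < 4 * c.den * S := by positivity
  set a := 4 * c.tn * (x * B) + c.g1 * (Q * x) + c.g2 * (X * q) with ha
  set n := 2 * c.bn * (X * x) with hn
  have h1 := nat_div_ge a (4 * c.den * S) hD
  have h2 := nat_div_le n (4 * c.den * S)
  have h3 := nat_cast_sub_ge (X + x + a / (4 * c.den * S) + 1) (n / (4 * c.den * S))
  have e : recX c ((X : ℝ) / S) ((x : ℝ) / S) ((B : ℝ) / S) ((Q : ℝ) / S) ((q : ℝ) / S)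
      = ((X : ℝ) + x + (a : ℝ) / ((4 * c.den * S : ℕ) : ℝ) - (n : ℝ) / ((4 * c.den * S : ℕ) : ℝ)) / S := by
    rw [ha, hn]
    unfold recX XC.A XC.T XC.C1 XC.C2
    push_cast
    field_simp
    ring
  rw [e]
  apply div_le_div_of_nonneg_right _ hS'.le
  unfold stepX
  rw [← ha, ← hn]
  push_cast at h1 h2 h3 ⊢
  linarith

/-- Rounding in the step allowing for a smaller first argument. -/
theorem recY_le_step (c : XC) (S x q X Q B : ℕ) (hS : 0 < S) (hden : 0 < c.den) :
    max (recX c ((X : ℝ) / S) ((x : ℝ) / S) ((B : ℝ) / S) ((Q : ℝ) / S) ((q : ℝ) / S))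
        ((X : ℝ) / S + c.C2 * ((X : ℝ) / S * ((q : ℝ) / S)))
      ≤ (stepY c S x q X Q B : ℝ) / S := by
  have hS' : (0 : ℝ) < S := by exact_mod_cast hS
  have hd' : (0 : ℝ) < c.den := by exact_mod_cast hden
  have hD : 0 < 4 * c.den * S := by positivity
  unfold stepY
  push_cast
  apply max_le
  · have h1 := recX_le_step c S x q X Q B hS hden
    refine h1.trans (div_le_div_of_nonneg_right ?_ hS'.le)
    exact le_max_left _ _
  · have h2 := nat_div_ge (c.g2 * (X * q)) (4 * c.den * S) hD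
    have e : (X : ℝ) / S + c.C2 * ((X : ℝ) / S * ((q : ℝ) / S))
        = ((X : ℝ) + ((c.g2 * (X * q) : ℕ) : ℝ) / ((4 * c.den * S : ℕ) : ℝ)) / S := by
      unfold XC.C2
      push_cast
      field_simp
    rw [e]
    apply div_le_div_of_nonneg_right _ hS'.le
    refine le_trans ?_ (le_max_right _ _)
    push_cast at h2 ⊢
    linarith

/-- Rounding in the fourth-moment step. -/
theorem recQ_le_step (c : QC) (S x q X Q : ℕ) (hS : 0 < S) (hden : 0 < c.den) :
    recQ c ((X : ℝ) / S) ((x : ℝ) / S) ((Q : ℝ) / S) ((q : ℝ) / S) ≤ (stepQ c S x q X Q : ℝ) / S := by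
  have hS' : (0 : ℝ) < S := by exact_mod_cast hS
  have hd' : (0 : ℝ) < c.den := by exact_mod_cast hden
  have hD : 0 < c.den * S := by positivity
  set a := c.g * (X * x) + c.c3 * (Q * x) + c.c4 * (X * q) with ha
  have h1 := nat_div_ge a (c.den * S) hD
  have e : recQ c ((X : ℝ) / S) ((x : ℝ) / S) ((Q : ℝ) / S) ((q : ℝ) / S)
      = ((Q : ℝ) + q + (a : ℝ) / ((c.den * S : ℕ) : ℝ)) / S := by
    rw [ha]
    unfold recQ
    push_cast
    field_simp
    ring
  rw [e]
  apply div_le_div_of_nonneg_right _ hS'.le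
  unfold stepQ
  rw [← ha]
  push_cast at h1 ⊢
  linarith

/-- Rounding in the third-moment step. -/
theorem recB_le_step (S b B : ℕ) (hS : 0 < S) :
    (B : ℝ) / S + (b : ℝ) / S - (B : ℝ) / S * ((b : ℝ) / S) ≤ (stepB S b B : ℝ) / S := by
  have hS' : (0 : ℝ) < S := by exact_mod_cast hS
  have h2 := nat_div_le (B * b) S
  have h3 := nat_cast_sub_ge (B + b) (B * b / S)
  have e : (B : ℝ) / S + (b : ℝ) / S - (B : ℝ) / S * ((b : ℝ) / S)
      = ((B : ℝ) + b - ((B * b : ℕ) : ℝ) / S) / S := by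
    push_cast
    field_simp
  rw [e]
  apply div_le_div_of_nonneg_right _ hS'.le
  unfold stepB
  push_cast at h2 h3 ⊢
  linarith

/-! ### The loop in the abstract -/

theorem stepMin_le (P : Par) (S x q X Q B : ℕ) (v : ℝ)
    (h0 : v ≤ (stepY P.c0 S x q X Q B : ℝ) / S)
    (hs : ∀ c ∈ P.cs, v ≤ (stepY c S x q X Q B : ℝ) / S) :
    v ≤ (stepMin P S x q X Q B : ℝ) / S := by
  unfold stepMin
  generalize P.cs = l at hs
  generalize stepY P.c0 S x q X Q B = a at h0
  induction l generalizing a with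
  | nil => simpa using h0
  | cons c l ih =>
    rw [List.foldl_cons]
    apply ih
    · intro c' hc'
      exact hs c' (List.mem_cons_of_mem c hc')
    · rcases min_choice a (stepY c S x q X Q B) with e | e <;> rw [e]
      · exact h0
      · exact hs c List.mem_cons_self

theorem stepQMin_le (P : Par) (S x q X Q : ℕ) (v : ℝ)
    (h0 : v ≤ (stepQ P.q0 S x q X Q : ℝ) / S)
    (hs : ∀ c ∈ P.qs, v ≤ (stepQ c S x q X Q : ℝ) / S) :
    v ≤ (stepQMin P S x q X Q : ℝ) / S := by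
  unfold stepQMin
  generalize P.qs = l at hs
  generalize stepQ P.q0 S x q X Q = a at h0
  induction l generalizing a with
  | nil => simpa using h0
  | cons c l ih =>
    rw [List.foldl_cons]
    apply ih
    · intro c' hc'
      exact hs c' (List.mem_cons_of_mem c hc')
    · rcases min_choice a (stepQ c S x q X Q) with e | e <;> rw [e]
      · exact h0
      · exact hs c List.mem_cons_self

/-- The abstract form of the inner loop. -/
theorem inner_sound (P : Par) (S x q b : ℕ) (hS : 0 < S)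
    (hd : ∀ c ∈ P.c0 :: P.cs, 0 < c.den) (hok : ∀ c ∈ P.c0 :: P.cs, okC c S x = true)
    (hdq : ∀ c ∈ P.q0 :: P.qs, 0 < c.den) {M R N : ℕ → ℝ} {y q' b' : ℝ}
    (hM0 : ∀ k, 0 ≤ M k) (hR0 : ∀ k, 0 ≤ R k) (hN1 : ∀ k, N k ≤ 1)
    (hb1 : (b : ℝ) / S ≤ 1)
    (r1 : ∀ c ∈ P.c0 :: P.cs, ∀ k, M (k + 1) ≤ recX c (M k) y (N k) (R k) q')
    (rq : ∀ c ∈ P.q0 :: P.qs, ∀ k, R (k + 1) ≤ recQ c (M k) y (R k) q')
    (rb : ∀ k, N (k + 1) ≤ N k + b' - N k * b')
    (hy0 : 0 ≤ y) (hy : y ≤ (x : ℝ) / S) (hq0 : 0 ≤ q') (hq : q' ≤ (q : ℝ) / S) (hb : b' ≤ (b : ℝ) / S) :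
    ∀ (k X Q B j : ℕ), M j ≤ (X : ℝ) / S → R j ≤ (Q : ℝ) / S → N j ≤ (B : ℝ) / S →
      M (j + k) ≤ ((inner P S x q b k X Q B).1 : ℝ) / S ∧ R (j + k) ≤ ((inner P S x q b k X Q B).2 : ℝ) / S := by
  have hS' : (0 : ℝ) < S := by exact_mod_cast hS
  intro k
  induction k with
  | zero =>
    intro X Q B j h1 h2 _
    exact ⟨h1, h2⟩
  | succ k ih =>
    intro X Q B j h1 h2 h3
    simp only [inner, force_eq]
    -- the side conditions
    have side : ∀ c ∈ P.c0 :: P.cs, c.A * ((x : ℝ) / S) ≤ 1 := by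
      intro c hcm
      have hc : 0 < c.den := hd c hcm
      have hk := hok c hcm
      have hc' : (0 : ℝ) < c.den := by exact_mod_cast hc
      unfold okC at hk
      simp only [Nat.ble_eq] at hk
      have k2' : (c.bn : ℝ) * x ≤ 2 * c.den * S := by exact_mod_cast hk
      unfold XC.A
      rw [div_mul_div_comm, div_le_one (by positivity)]
      linarith
    have one : ∀ c ∈ P.c0 :: P.cs, M (j + 1) ≤ (stepY c S x q X Q B : ℝ) / S := by
      intro c hcm
      exact (r1 c hcm j).trans ((recY_mono c (hM0 j) h1 hy0 hy h3 h2 hq0 hq (side c hcm)).trans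
        (recY_le_step c S x q X Q B hS (hd c hcm)))
    have hXn : M (j + 1) ≤ (stepMin P S x q X Q B : ℝ) / S :=
      stepMin_le P S x q X Q B _ (one _ List.mem_cons_self)
        (fun c hc => one c (List.mem_cons_of_mem _ hc))
    have oneQ : ∀ c ∈ P.q0 :: P.qs, R (j + 1) ≤ (stepQ c S x q X Q : ℝ) / S := by
      intro c hcm
      exact (rq c hcm j).trans ((recQ_mono c (hM0 j) h1 hy0 hy (hR0 j) h2 hq0 hq).trans
        (recQ_le_step c S x q X Q hS (hdq c hcm)))
    have hQn : R (j + 1) ≤ (stepQMin P S x q X Q : ℝ) / S :=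
      stepQMin_le P S x q X Q _ (oneQ _ List.mem_cons_self)
        (fun c hc => oneQ c (List.mem_cons_of_mem _ hc))
    have hBn : N (j + 1) ≤ (stepB S b B : ℝ) / S :=
      (rb j).trans ((recB_mono (hN1 j) h3 hb hb1).trans (recB_le_step S b B hS))
    have := ih _ _ _ (j + 1) hXn hQn hBn
    rwa [show j + 1 + k = j + (k + 1) by ring] at this

end Vale.Agent.Lib.P154.Cl
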