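import Vale.Agent.Lib.P154_cl98.PolyA

/-!
The fourth-moment functional `QQ` and the corrected product bound for `xx`.
-/

noncomputable section

open Finset

namespace Vale.Agent.Lib.P154.Cl

open Vale.Agent.Lib.P154

/-- The atom of the fourth-moment functional: `(N / 3) s²`, where `N` is the mass and
`s = 3 ‖v‖² / N² - 1`. -/
def gQ (a b c : ℝ) : ℝ := 3 * fN a b c ^ 2 / (a + b + c)

/-- The fourth-moment functional. -/
def QQ {ι : Type*} [Fintype ι] (l : ι → Fin 3 → ℝ) : ℝ := ∑ t, gQ (l t 0) (l t 1) (l t 2)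

theorem gQ_smul (k a b c : ℝ) (hk : k ≠ 0) : gQ (k * a) (k * b) (k * c) = k * gQ a b c := by
  unfold gQ fN
  rw [F3_smul k a b c hk]
  by_cases h : a + b + c = 0
  · have e : k * a + k * b + k * c = k * (a + b + c) := by ring
    rw [e, h]
    simp
  · have e : k * a + k * b + k * c = k * (a + b + c) := by ring
    rw [e]
    field_simp

theorem gQ_nonneg {a b c : ℝ} (h : 0 < a + b + c) : 0 ≤ gQ a b c := by
  unfold gQ
  positivity

theorem QQ_nonneg {ι : Type*} [Fintype ι] {l : ι → Fin 3 → ℝ} (h : WSig l) : 0 ≤ QQ l :=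
  Finset.sum_nonneg fun t _ => gQ_nonneg (h.Npos t)

/-- Value on a normalised atom. -/
theorem fN_norm (a b c : ℝ) (hs : a + b + c = 1) : fN a b c = 2 / 3 * A3 a b c := by
  unfold fN
  rw [F3_eq_of_sum _ _ _ hs, hs]
  ring

theorem gQ_norm (a b c : ℝ) (hs : a + b + c = 1) : gQ a b c = 4 / 3 * A3 a b c ^ 2 := by
  unfold gQ
  rw [fN_norm _ _ _ hs, hs]
  ring

/-! ### The pointwise bound -/

/-- Normalised form. -/
theorem coreC (a b c p q r μ β θ g1 g2 : ℝ) (hμ : 0 < μ) (hc : CertC μ β θ g1 g2) (ha : 0 < a) (hb : 0 < b)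
    (hcc : 0 < c) (hp : 0 < p) (hq : 0 < q) (hr : 0 < r) (hs : a + b + c = 1) (hs' : p + q + r = 1)
    (hp1 : p ≤ (1 + μ) / 3) (hq1 : q ≤ (1 + μ) / 3) (hr1 : r ≤ (1 + μ) / 3) :
    six F3 a b c p q r ≤ 2 - (4 / 3) * (1 - A3 a b c - A3 p q r + β * A3 a b c * A3 p q r
      - g1 * A3 a b c ^ 2 * A3 p q r - g2 * A3 a b c * A3 p q r ^ 2
      - θ * A3 p q r * (1 - 9 * K3 a b c)) := by
  obtain ⟨t0, t1, t2, h0, h1, h2, hst, hA, hC⟩ := chamber a b c ha.le hb.le hcc.le hs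
  obtain ⟨s0, s1, s2, k0, k1, k2, hss, hA', hC'⟩ := chamber_capped p q r μ hμ hp1 hq1 hr1 hs'
  have hR := hc t0 t1 t2 s0 s1 s2 h0 h1 h2 hst k0 k1 k2 hss
  rw [← hA, ← hC, ← hA', ← hC'] at hR
  have h1A : A3 a b c < 1 := A3_lt_one ha hb hcc
  have hpos : 0 < a * b + b * c + c * a := by positivity
  have hk := one_sub_nineK a b c hs hpos
  rw [hk]
  apply core_norm a b c p q r _ ha hb hcc hp hq hr hs hs'
  set A1 := A3 a b c
  set C1 := C3 a b c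
  set A2 := A3 p q r
  set C2 := C3 p q r
  have hu : 0 < 1 - A1 := by linarith
  unfold polyRc polyZc at hR
  have e : (1 - A1) * (1 - A1 - A2 + β * A1 * A2 - g1 * A1 ^ 2 * A2 - g2 * A1 * A2 ^ 2) - θ * A2 * (2 * A1 - C1)
      = (1 - A1) * (1 - A1 - A2 + β * A1 * A2 - g1 * A1 ^ 2 * A2 - g2 * A1 * A2 ^ 2
        - θ * A2 * ((2 * A1 - C1) / (1 - A1))) := by
    field_simp
  rw [e] at hR
  have h3 : (1 - A1) * ((1 - A1 - A2 + β * A1 * A2 - g1 * A1 ^ 2 * A2 - g2 * A1 * A2 ^ 2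
      - θ * A2 * ((2 * A1 - C1) / (1 - A1))) * polyX A1 C1 A2 C2)
      ≤ (1 - A1) * polyJ A1 C1 A2 C2 := by
    nlinarith [hR]
  exact le_of_mul_le_mul_left h3 hu

/-- Homogeneous form. -/
theorem homC (a b c p q r μ β θ g1 g2 : ℝ) (hμ : 0 < μ) (hc : CertC μ β θ g1 g2) (ha : 0 < a) (hb : 0 < b)
    (hcc : 0 < c) (hp : 0 < p) (hq : 0 < q) (hr : 0 < r)
    (hp1 : p ≤ (1 + μ) / 3 * (p + q + r)) (hq1 : q ≤ (1 + μ) / 3 * (p + q + r))
    (hr1 : r ≤ (1 + μ) / 3 * (p + q + r)) :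
    six F3 a b c p q r
      ≤ 2 / 3 * (a + b + c) * (p + q + r) + 2 * (p + q + r) * fN a b c + 2 * (a + b + c) * fN p q r
        - 3 * β * (fN a b c * fN p q r) + 2 * θ * (fN p q r * ((a + b + c) - 9 * K3 a b c))
        + 3 / 2 * g1 * (gQ a b c * fN p q r) + 3 / 2 * g2 * (fN a b c * gQ p q r) := by
  obtain ⟨N, a', b', c', hN0, hNe, ha', hb', hc', hs, rfl, rfl, rfl⟩ := norm_coord a b c ha hb hcc
  obtain ⟨M, p', q', r', hM, hMe, hp', hq', hr', hs', hpe, hqe, hre⟩ := norm_coord p q r hp hq hr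
  subst hpe hqe hre
  have e1 : N * a' + N * b' + N * c' = N := by rw [← mul_add, ← mul_add, hs, mul_one]
  have e2 : M * p' + M * q' + M * r' = M := by rw [← mul_add, ← mul_add, hs', mul_one]
  rw [e2] at hp1 hq1 hr1
  have hp1' : p' ≤ (1 + μ) / 3 := by
    have : M * p' ≤ M * ((1 + μ) / 3) := by linarith
    exact le_of_mul_le_mul_left this hM
  have hq1' : q' ≤ (1 + μ) / 3 := by
    have : M * q' ≤ M * ((1 + μ) / 3) := by linarith
    exact le_of_mul_le_mul_left this hM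
  have hr1' : r' ≤ (1 + μ) / 3 := by
    have : M * r' ≤ M * ((1 + μ) / 3) := by linarith
    exact le_of_mul_le_mul_left this hM
  have hcore := coreC a' b' c' p' q' r' μ β θ g1 g2 hμ hc ha' hb' hc' hp' hq' hr' hs hs' hp1' hq1' hr1'
  rw [six_smul F3 (fun k x y z hk => F3_smul k x y z hk) N M _ _ _ _ _ _ hN0.ne' hM.ne']
  have hN1 : fN (N * a') (N * b') (N * c') = N * ((2 / 3) * A3 a' b' c') := by
    unfold fN
    rw [F3_smul N _ _ _ hN0.ne', e1, F3_eq_of_sum _ _ _ hs]; ring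
  have hN2 : fN (M * p') (M * q') (M * r') = M * ((2 / 3) * A3 p' q' r') := by
    unfold fN
    rw [F3_smul M _ _ _ hM.ne', e2, F3_eq_of_sum _ _ _ hs']; ring
  have hQ1 : gQ (N * a') (N * b') (N * c') = N * (4 / 3 * A3 a' b' c' ^ 2) := by
    rw [gQ_smul N _ _ _ hN0.ne', gQ_norm _ _ _ hs]
  have hQ2 : gQ (M * p') (M * q') (M * r') = M * (4 / 3 * A3 p' q' r' ^ 2) := by
    rw [gQ_smul M _ _ _ hM.ne', gQ_norm _ _ _ hs']
  rw [hN1, hN2, hQ1, hQ2, K3_smul N _ _ _ hN0.ne', e1, e2]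
  have hNM : 0 < N * M := mul_pos hN0 hM
  have := mul_le_mul_of_nonneg_left hcore hNM.le
  nlinarith [this]

section
variable {ι κ : Type*} [Fintype ι] [Fintype κ]

theorem sum_bilinC (n f K Q : ι → ℝ) (m g R : κ → ℝ) (β θ g1 g2 : ℝ) :
    ∑ t, ∑ t', (2 / 3 * n t * m t' + 2 * m t' * f t + 2 * n t * g t' - 3 * β * (f t * g t')
        + 2 * θ * (g t' * (n t - 9 * K t)) + 3 / 2 * g1 * (Q t * g t') + 3 / 2 * g2 * (f t * R t'))
      = 2 / 3 * (∑ t, n t) * (∑ t', m t') + 2 * (∑ t', m t') * (∑ t, f t)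
        + 2 * (∑ t, n t) * (∑ t', g t') - 3 * β * ((∑ t, f t) * (∑ t', g t'))
        + 2 * θ * ((∑ t', g t') * ((∑ t, n t) - 9 * ∑ t, K t))
        + 3 / 2 * g1 * ((∑ t, Q t) * (∑ t', g t')) + 3 / 2 * g2 * ((∑ t, f t) * (∑ t', R t')) := by
  simp only [Finset.sum_sub_distrib, Finset.sum_add_distrib, ← Finset.mul_sum, ← Finset.sum_mul]

/-- The chi-square bound for a product of an arbitrary signal and a capped signal. -/
theorem xx_prod_C {l : ι → Fin 3 → ℝ} {l' : κ → Fin 3 → ℝ} {μ β θ g1 g2 : ℝ} (hμ : 0 < μ)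
    (hc : CertC μ β θ g1 g2) (h : IsSig l) (h' : IsSig l') (hcap : Capped μ l') :
    xx (prodS l l') ≤ xx l + xx l' - 3 / 2 * β * (xx l * xx l') + θ * (xx l' * BB l)
      + g1 / 4 * (QQ l * xx l') + g2 / 4 * (xx l * QQ l') := by
  have e := six_sumF l h'.toW
  have b : ∑ t, ∑ t', six F3 (l t 0) (l t 1) (l t 2) (l' t' 0) (l' t' 1) (l' t' 2)
      ≤ ∑ t, ∑ t', (2 / 3 * (l t 0 + l t 1 + l t 2) * (l' t' 0 + l' t' 1 + l' t' 2)
        + 2 * (l' t' 0 + l' t' 1 + l' t' 2) * fN (l t 0) (l t 1) (l t 2)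
        + 2 * (l t 0 + l t 1 + l t 2) * fN (l' t' 0) (l' t' 1) (l' t' 2)
        - 3 * β * (fN (l t 0) (l t 1) (l t 2) * fN (l' t' 0) (l' t' 1) (l' t' 2))
        + 2 * θ * (fN (l' t' 0) (l' t' 1) (l' t' 2)
            * ((l t 0 + l t 1 + l t 2) - 9 * K3 (l t 0) (l t 1) (l t 2)))
        + 3 / 2 * g1 * (gQ (l t 0) (l t 1) (l t 2) * fN (l' t' 0) (l' t' 1) (l' t' 2))
        + 3 / 2 * g2 * (fN (l t 0) (l t 1) (l t 2) * gQ (l' t' 0) (l' t' 1) (l' t' 2))) := by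
    refine Finset.sum_le_sum fun t _ => Finset.sum_le_sum fun t' _ => ?_
    exact homC _ _ _ _ _ _ μ β θ g1 g2 hμ hc (h.pos t 0) (h.pos t 1) (h.pos t 2)
      (h'.pos t' 0) (h'.pos t' 1) (h'.pos t' 2) (hcap t' 0) (hcap t' 1) (hcap t' 2)
  rw [sum_bilinC (fun t => l t 0 + l t 1 + l t 2) (fun t => fN (l t 0) (l t 1) (l t 2))
    (fun t => K3 (l t 0) (l t 1) (l t 2)) (fun t => gQ (l t 0) (l t 1) (l t 2))
    (fun t' => l' t' 0 + l' t' 1 + l' t' 2)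
    (fun t' => fN (l' t' 0) (l' t' 1) (l' t' 2)) (fun t' => gQ (l' t' 0) (l' t' 1) (l' t' 2)) β θ g1 g2,
    sum_N h.tot, sum_N h'.tot, sum_f h.tot, sum_f h'.tot, ← e] at b
  have e2 : sumF (prodS l l') = 3 * xx (prodS l l') + 1 := by unfold xx; ring
  rw [e2] at b
  change _ ≤ _ + 3 / 2 * g1 * (QQ l * (3 * xx l')) + 3 / 2 * g2 * ((3 * xx l) * QQ l') at b
  unfold BB sumK
  nlinarith [b]

end

end Vale.Agent.Lib.P154.Cl
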